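import Vale.Agent.P267.H206.Sym
import Vale.Agent.P267.H399.Wirt

/-!
# P267 block G (helper206): the complex structure transported by almost holomorphic coordinates

`Φ` = the coordinates `Π = (z,w)` in a chart. `P = (∂̄_j Φ_i)`, `Q = (∂_j Φ_k)`.
`AA Φ ζ k i` = the matrix `A` with `∂̄_k g = ∑_i A_{ki} ∂_i g` for all `g` with `g ∘ Φ` holomorphic.
-/

set_option linter.unusedVariables false

open scoped ContDiff Topology ComplexConjugate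
open Set Filter

noncomputable section

namespace Vale.Agent.P267.H206

open FL

/-- `det (∂_j Φ_k)` -/
def dQ (Φ : C2 → C2) (ζ : C2) : ℂ := dz 0 Φ ζ 0 * dz 1 Φ ζ 1 - dz 1 Φ ζ 0 * dz 0 Φ ζ 1

/-- `(j,k)` entry of the adjugate of `(conj (∂_j Φ_k))_{k,j}` -/
def cof (Φ : C2 → C2) (ζ : C2) (j k : Fin 2) : ℂ :=
  if j = 0 then (if k = 0 then conj (dz 1 Φ ζ 1) else -conj (dz 1 Φ ζ 0))
  else (if k = 0 then -conj (dz 0 Φ ζ 1) else conj (dz 0 Φ ζ 0))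

/-- the transported complex structure, in a chart -/
def AA (Φ : C2 → C2) (ζ : C2) (k i : Fin 2) : ℂ :=
  -∑ j, (conj (dQ Φ ζ))⁻¹ * (dzb j Φ ζ i * cof Φ ζ j k)

theorem dzb_apply {Φ : C2 → C2} {ζ : C2} (hΦ : DifferentiableAt ℝ Φ ζ) (j i : Fin 2) :
    dzb j (fun y => Φ y i) ζ = dzb j Φ ζ i := by
  have := dzb_clm (ContinuousLinearMap.proj (R := ℂ) (φ := fun _ : Fin 2 => ℂ) i) hΦ j
  simpa only [ContinuousLinearMap.proj_apply] using this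

theorem dz_apply {Φ : C2 → C2} {ζ : C2} (hΦ : DifferentiableAt ℝ Φ ζ) (j i : Fin 2) :
    dz j (fun y => Φ y i) ζ = dz j Φ ζ i := by
  have := dz_clm (ContinuousLinearMap.proj (R := ℂ) (φ := fun _ : Fin 2 => ℂ) i) hΦ j
  simpa only [ContinuousLinearMap.proj_apply] using this

/-- chain rule for `∂̄` with a real differentiable inner map -/
theorem dzb_comp' {g : C2 → ℂ} {Φ : C2 → C2} {ζ : C2} (hg : DifferentiableAt ℝ g (Φ ζ))
    (hΦ : DifferentiableAt ℝ Φ ζ) (j : Fin 2) :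
    dzb j (fun y => g (Φ y)) ζ =
      ∑ i, (dzb j Φ ζ i * dz i g (Φ ζ) + conj (dz j Φ ζ i) * dzb i g (Φ ζ)) := by
  have h1 : fderiv ℝ (fun y => g (Φ y)) ζ = (fderiv ℝ g (Φ ζ)).comp (fderiv ℝ Φ ζ) :=
    fderiv_fun_comp ζ hg hΦ
  have e : ∀ v : C2, fderiv ℝ g (Φ ζ) v = ∑ i, (v i * dz i g (Φ ζ) + conj (v i) * dzb i g (Φ ζ)) :=
    fun v => by simpa using fderiv_eq_wirt (f := g) (z := Φ ζ) v
  conv_lhs => unfold dzb
  rw [h1]
  simp only [ContinuousLinearMap.comp_apply, e, Fin.sum_univ_two]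
  have d1 : ∀ i, dzb j Φ ζ i = (1 / 2 : ℂ) * (fderiv ℝ Φ ζ (Pi.single j 1) i +
      Complex.I * fderiv ℝ Φ ζ (Pi.single j Complex.I) i) := fun i => by simp [dzb]
  have d2 : ∀ i, dz j Φ ζ i = (1 / 2 : ℂ) * (fderiv ℝ Φ ζ (Pi.single j 1) i -
      Complex.I * fderiv ℝ Φ ζ (Pi.single j Complex.I) i) := fun i => by simp [dz]
  simp only [d1, d2, map_mul, map_sub, Complex.conj_I, map_div₀, map_one, map_ofNat, smul_eq_mul]
  ring

theorem transport {g : C2 → ℂ} {Φ : C2 → C2} {ζ : C2} (hg : DifferentiableAt ℝ g (Φ ζ))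
    (hΦ : DifferentiableAt ℝ Φ ζ) (hd : dQ Φ ζ ≠ 0)
    (hol : DifferentiableAt ℂ (fun y => g (Φ y)) ζ) (k : Fin 2) :
    dzb k g (Φ ζ) = ∑ i, AA Φ ζ k i * dz i g (Φ ζ) := by
  have h : ∀ j, ∑ i, (dzb j Φ ζ i * dz i g (Φ ζ) + conj (dz j Φ ζ i) * dzb i g (Φ ζ)) = 0 :=
    fun j => by rw [← dzb_comp' hg hΦ j, dzb_of_hol hol]
  have h0 := h 0
  have h1 := h 1
  have hd' : conj (dQ Φ ζ) ≠ 0 := by simpa using hd
  rw [← sub_eq_zero]
  have key : conj (dQ Φ ζ) * (dzb k g (Φ ζ) - ∑ i, AA Φ ζ k i * dz i g (Φ ζ)) = 0 := by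
    have : conj (dQ Φ ζ) * ∑ i, AA Φ ζ k i * dz i g (Φ ζ)
        = -∑ i, ∑ j, dzb j Φ ζ i * cof Φ ζ j k * dz i g (Φ ζ) := by
      simp only [AA, Fin.sum_univ_two]
      field_simp
      ring
    rw [mul_sub, this]
    simp only [dQ, map_sub, map_mul, Fin.sum_univ_two] at h0 h1 ⊢
    fin_cases k
    · simp only [cof, Fin.zero_eta, Fin.isValue, ↓reduceIte, one_ne_zero]
      linear_combination (conj (dz 1 Φ ζ 1)) * h0 - (conj (dz 0 Φ ζ 1)) * h1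
    · simp only [cof, Fin.mk_one, Fin.isValue, ↓reduceIte, one_ne_zero]
      linear_combination (-conj (dz 1 Φ ζ 0)) * h0 + (conj (dz 0 Φ ζ 0)) * h1
  rcases mul_eq_zero.1 key with h | h
  · exact absurd h hd'
  · exact h

/-- lower bound of the differential -/
theorem lower_bound {Φ : C2 → C2} {ζ : C2} {B C δ : ℝ} (hδ : 0 < δ) (hB : ∀ j, ‖dz j Φ ζ‖ ≤ B)
    (hP : ∀ j, ‖dzb j Φ ζ‖ ≤ C) (hd : δ ≤ ‖dQ Φ ζ‖) (hs : 8 * B * C ≤ δ) (v : C2) :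
    δ * ‖v‖ ≤ 4 * B * ‖fderiv ℝ Φ ζ v‖ := by
  set u : C2 := ∑ j, v j • dz j Φ ζ with hu
  have hB0 : 0 ≤ B := (norm_nonneg _).trans (hB 0)
  have hC0 : 0 ≤ C := (norm_nonneg _).trans (hP 0)
  have h1 : ‖u‖ ≤ ‖fderiv ℝ Φ ζ v‖ + 2 * C * ‖v‖ := by
    have e : u = fderiv ℝ Φ ζ v - ∑ j, conj (v j) • dzb j Φ ζ := by
      rw [fderiv_eq_wirt (f := Φ) (z := ζ) v, hu, Finset.sum_add_distrib]
      abel
    rw [e]
    refine (norm_sub_le _ _).trans ?_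
    gcongr
    refine (norm_sum_le _ _).trans ?_
    rw [Fin.sum_univ_two, norm_smul, norm_smul, RCLike.norm_conj, RCLike.norm_conj]
    have a0 := norm_le_pi_norm v 0
    have a1 := norm_le_pi_norm v 1
    have b0 := hP 0
    have b1 := hP 1
    have c0 : ‖v 0‖ * ‖dzb 0 Φ ζ‖ ≤ ‖v‖ * C := by gcongr
    have c1 : ‖v 1‖ * ‖dzb 1 Φ ζ‖ ≤ ‖v‖ * C := by gcongr
    linarith
  have hbb : ∀ j i, ‖dz j Φ ζ i‖ ≤ B := fun j i => (norm_le_pi_norm _ i).trans (hB j)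
  have h2 : ‖dQ Φ ζ‖ * ‖v‖ ≤ 2 * B * ‖u‖ := by
    rw [← norm_smul, pi_norm_le_iff_of_nonneg (by positivity)]
    intro i
    have hu0 : u 0 = v 0 * dz 0 Φ ζ 0 + v 1 * dz 1 Φ ζ 0 := by simp [hu, Fin.sum_univ_two]
    have hu1 : u 1 = v 0 * dz 0 Φ ζ 1 + v 1 * dz 1 Φ ζ 1 := by simp [hu, Fin.sum_univ_two]
    have n0 := norm_le_pi_norm u 0
    have n1 := norm_le_pi_norm u 1
    have key : ∀ a b : ℂ, ‖a‖ ≤ B → ‖b‖ ≤ B → ‖a * u 0 - b * u 1‖ ≤ 2 * B * ‖u‖ := by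
      intro a b ha hb
      refine (norm_sub_le _ _).trans ?_
      rw [norm_mul, norm_mul]
      have c0 : ‖a‖ * ‖u 0‖ ≤ B * ‖u‖ := by gcongr
      have c1 : ‖b‖ * ‖u 1‖ ≤ B * ‖u‖ := by gcongr
      linarith
    fin_cases i
    · have e : (dQ Φ ζ • v) 0 = dz 1 Φ ζ 1 * u 0 - dz 1 Φ ζ 0 * u 1 := by
        rw [hu0, hu1]
        simp only [Pi.smul_apply, smul_eq_mul, dQ]
        ring
      simp only [Fin.zero_eta, Fin.isValue, e]
      exact key _ _ (hbb _ _) (hbb _ _)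
    · have e : (dQ Φ ζ • v) 1 = -(dz 0 Φ ζ 1 * u 0 - dz 0 Φ ζ 0 * u 1) := by
        rw [hu0, hu1]
        simp only [Pi.smul_apply, smul_eq_mul, dQ]
        ring
      simp only [Fin.mk_one, Fin.isValue, e, norm_neg]
      exact key _ _ (hbb _ _) (hbb _ _)
  have h3 : δ * ‖v‖ ≤ 2 * B * (‖fderiv ℝ Φ ζ v‖ + 2 * C * ‖v‖) := by
    calc δ * ‖v‖ ≤ ‖dQ Φ ζ‖ * ‖v‖ := by gcongr
      _ ≤ 2 * B * ‖u‖ := h2
      _ ≤ _ := by gcongr
  have h4 : 8 * B * C * ‖v‖ ≤ δ * ‖v‖ := by gcongr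
  nlinarith

/-- an injective endomorphism with a lower bound is invertible, with a bounded inverse -/
theorem isUnit_of_lower {E : Type*} [NormedAddCommGroup E] [NormedSpace ℝ E]
    [FiniteDimensional ℝ E] {T : E →L[ℝ] E} {δ : ℝ} (hδ : 0 < δ) (h : ∀ v, δ * ‖v‖ ≤ ‖T v‖) :
    IsUnit T ∧ ‖Ring.inverse T‖ ≤ δ⁻¹ := by
  have hinj : Function.Injective T := by
    rw [injective_iff_map_eq_zero]
    intro v hv
    have := h v
    rw [hv, norm_zero] at this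
    have h2 : ‖v‖ ≤ 0 := by
      by_contra hc
      push Not at hc
      have := mul_pos hδ hc
      linarith
    simpa using h2
  let e : E ≃L[ℝ] E := (LinearEquiv.ofInjectiveEndo (T : E →ₗ[ℝ] E) hinj).toContinuousLinearEquiv
  have hT : T = (ContinuousLinearEquiv.unitsEquiv ℝ E).symm e := by
    ext v
    rfl
  have hu : IsUnit T := by
    rw [hT]
    exact Units.isUnit _
  refine ⟨hu, ContinuousLinearMap.opNorm_le_bound _ (inv_nonneg.2 hδ.le) fun w => ?_⟩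
  have h1 := h (Ring.inverse T w)
  have h2 : T (Ring.inverse T w) = w := by
    have := Ring.mul_inverse_cancel _ hu
    exact congrArg (fun S : E →L[ℝ] E => S w) this
  rw [h2] at h1
  rw [inv_mul_eq_div, le_div_iff₀ hδ]
  linarith

/-! ### symbols -/

section sym

variable {I : Type}

/-- `dz j` as a continuous linear map of the differential -/
def dzL (V : Type) [NormedAddCommGroup V] [NormedSpace ℂ V] (j : Fin 2) : (C2 →L[ℝ] V) →L[ℝ] V :=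
  (1 / 2 : ℂ) • (ContinuousLinearMap.apply ℝ V (Pi.single j 1 : C2) -
    Complex.I • ContinuousLinearMap.apply ℝ V (Pi.single j Complex.I : C2))

/-- `dzb j` as a continuous linear map of the differential -/
def dzbL (V : Type) [NormedAddCommGroup V] [NormedSpace ℂ V] (j : Fin 2) : (C2 →L[ℝ] V) →L[ℝ] V :=
  (1 / 2 : ℂ) • (ContinuousLinearMap.apply ℝ V (Pi.single j 1 : C2) +
    Complex.I • ContinuousLinearMap.apply ℝ V (Pi.single j Complex.I : C2))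

variable {V : Type} [NormedAddCommGroup V] [NormedSpace ℂ V]

theorem dz_eq_dzL (f : C2 → V) (z : C2) (j : Fin 2) : dz j f z = dzL V j (fderiv ℝ f z) := by
  simp [dz, dzL]

theorem dzb_eq_dzbL (f : C2 → V) (z : C2) (j : Fin 2) : dzb j f z = dzbL V j (fderiv ℝ f z) := by
  simp [dzb, dzbL]

variable {W : I → Set C2} {τ : I → C2 → ℝ} {N J : ℕ} {q q' : ℤ}

theorem Sc.dz {f : I → C2 → V} (hf : Sc W τ N (J + 1) q f) (hw : Wt W τ) (j : Fin 2) :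
    Sc W τ N J (q - N) (fun i => FL.dz j (f i)) := by
  have h := (hf.fderiv hw).clm (dzL V j) hw
  have e : (fun i => FL.dz j (f i)) = fun i x => dzL V j (_root_.fderiv ℝ (f i) x) := by
    ext i x
    exact dz_eq_dzL _ _ _
  rw [e]
  exact h

theorem Sc.dzb {f : I → C2 → V} (hf : Sc W τ N (J + 1) q f) (hw : Wt W τ) (j : Fin 2) :
    Sc W τ N J (q - N) (fun i => FL.dzb j (f i)) := by
  have h := (hf.fderiv hw).clm (dzbL V j) hw
  have e : (fun i => FL.dzb j (f i)) = fun i x => dzbL V j (_root_.fderiv ℝ (f i) x) := by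
    ext i x
    exact dzb_eq_dzbL _ _ _
  rw [e]
  exact h

theorem Sc.comp_proj {f : I → C2 → C2} (hf : Sc W τ N J q f) (hw : Wt W τ) (k : Fin 2) :
    Sc W τ N J q (fun i x => f i x k) :=
  hf.clm (ContinuousLinearMap.proj (R := ℝ) (φ := fun _ : Fin 2 => ℂ) k) hw

theorem Sc.conj {f : I → C2 → ℂ} (hf : Sc W τ N J q f) (hw : Wt W τ) :
    Sc W τ N J q (fun i x => conj (f i x)) :=
  hf.clm (Complex.conjCLE : ℂ →L[ℝ] ℂ) hw

theorem Sc.mul {f g : I → C2 → ℂ} (hf : Sc W τ N J q f) (hg : Sc W τ N J q' g) (hw : Wt W τ) :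
    Sc W τ N J (q + q') (fun i x => f i x * g i x) :=
  hf.bilin (ContinuousLinearMap.mul ℝ ℂ) hg hw

theorem Sc.restrict {F : Type} [NormedAddCommGroup F] [NormedSpace ℝ F] {f : I → C2 → F}
    {W' : I → Set C2} (hf : Sc W τ N J q f) (h : ∀ i, W' i ⊆ W i) : Sc W' τ N J q f :=
  ⟨fun i => (hf.smooth i).mono (h i), fun j hj => by
    obtain ⟨C, hC⟩ := hf.bd j hj
    exact ⟨C, fun i x hx => hC i x (h i hx)⟩⟩

/-- THE HYPOTHESES ON THE COORDINATES `Φ i` IN THE CHARTS: derivatives bounded, `∂̄Φ = O(τ^m)`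
(one power lost per derivative), Jacobian `≥ c τ^{m₀}`, `τ = |Φ|`. -/
structure Alm (W : I → Set C2) (Φ : I → C2 → C2) (J m m₀ : ℕ) : Prop where
  isOpen : ∀ i, IsOpen (W i)
  ne : ∀ i, ∀ x ∈ W i, Φ i x ≠ 0
  le_one : ∀ i, ∀ x ∈ W i, ‖Φ i x‖ ≤ 1
  bd : Sc W (fun i x => ‖Φ i x‖) 0 (J + 1) 0 Φ
  dbar : ∀ j, Sc W (fun i x => ‖Φ i x‖) 1 J m (fun i => FL.dzb j (Φ i))
  jac : ∃ c > (0 : ℝ), ∀ i, ∀ x ∈ W i, c * ‖Φ i x‖ ^ m₀ ≤ ‖dQ (Φ i) x‖

theorem Alm.wt {Φ : I → C2 → C2} {J m m₀ : ℕ} (h : Alm W Φ J m m₀) :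
    Wt W (fun i x => ‖Φ i x‖) :=
  ⟨h.isOpen, fun i x hx => norm_pos_iff.2 (h.ne i x hx), h.le_one⟩

theorem Alm.restrict {Φ : I → C2 → C2} {J m m₀ : ℕ} (h : Alm W Φ J m m₀) {W' : I → Set C2}
    (ho : ∀ i, IsOpen (W' i)) (hs : ∀ i, W' i ⊆ W i) : Alm W' Φ J m m₀ where
  isOpen := ho
  ne i x hx := h.ne i x (hs i hx)
  le_one i x hx := h.le_one i x (hs i hx)
  bd := h.bd.restrict hs
  dbar j := (h.dbar j).restrict hs
  jac := by
    obtain ⟨c, hc, h2⟩ := h.jac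
    exact ⟨c, hc, fun i x hx => h2 i x (hs i hx)⟩

theorem Alm.dzSc {Φ : I → C2 → C2} {J m m₀ : ℕ} (h : Alm W Φ J m m₀) (j : Fin 2) :
    Sc W (fun i x => ‖Φ i x‖) 0 J 0 (fun i => FL.dz j (Φ i)) := by
  simpa using h.bd.dz h.wt j

theorem Alm.dQSc {Φ : I → C2 → C2} {J m m₀ : ℕ} (h : Alm W Φ J m m₀) :
    Sc W (fun i x => ‖Φ i x‖) 0 J 0 (fun i => dQ (Φ i)) := by
  have h0 := h.dzSc 0
  have h1 := h.dzSc 1
  have := ((h0.comp_proj h.wt 0).mul (h1.comp_proj h.wt 1) h.wt).sub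
    ((h1.comp_proj h.wt 0).mul (h0.comp_proj h.wt 1) h.wt) h.wt
  rw [add_zero] at this
  exact this

theorem Alm.cofSc {Φ : I → C2 → C2} {J m m₀ : ℕ} (h : Alm W Φ J m m₀) (j k : Fin 2) :
    Sc W (fun i x => ‖Φ i x‖) 0 J 0 (fun i x => cof (Φ i) x j k) := by
  have h0 := h.dzSc 0
  have h1 := h.dzSc 1
  have a := ((h1.comp_proj h.wt 1).conj h.wt)
  have b := ((h1.comp_proj h.wt 0).conj h.wt).neg h.wt
  have c := ((h0.comp_proj h.wt 1).conj h.wt).neg h.wt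
  have d := ((h0.comp_proj h.wt 0).conj h.wt)
  fin_cases j <;> fin_cases k <;> simpa [cof]

/-- the transported structure is a symbol of order `m - m₀` -/
theorem Alm.AASc {Φ : I → C2 → C2} {J m m₀ : ℕ} (h : Alm W Φ J m m₀) (hN1 : 1 ≤ N) (hN : m₀ ≤ N)
    (k i : Fin 2) : Sc W (fun i x => ‖Φ i x‖) N J (m - m₀) (fun l x => AA (Φ l) x k i) := by
  obtain ⟨c, hc, hjac⟩ := h.jac
  have hne : ∀ l, ∀ x ∈ W l, dQ (Φ l) x ≠ 0 := fun l x hx => by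
    have := hjac l x hx
    have h2 : 0 < c * ‖Φ l x‖ ^ m₀ := by
      have := norm_pos_iff.2 (h.ne l x hx)
      positivity
    exact norm_pos_iff.1 (h2.trans_le this)
  have hinv : Sc W (fun i x => ‖Φ i x‖) N J (-(m₀ : ℤ)) (fun l x => (conj (dQ (Φ l) x))⁻¹) := by
    have := Sc.ringInverse h.wt (h.dQSc.conj h.wt) hN
      (fun l x hx => IsUnit.mk0 _ (by simpa using hne l x hx)) ?_
    · simpa only [Ring.inverse_eq_inv'] using this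
    · refine ⟨c⁻¹, fun l x hx => ?_⟩
      rw [Ring.inverse_eq_inv', norm_inv, RCLike.norm_conj, zpow_neg, ← mul_inv, zpow_natCast]
      refine inv_anti₀ ?_ (hjac l x hx)
      have := norm_pos_iff.2 (h.ne l x hx)
      positivity
  have key : ∀ j, Sc W (fun i x => ‖Φ i x‖) N J (m - m₀)
      (fun l x => (conj (dQ (Φ l) x))⁻¹ * (FL.dzb j (Φ l) x i * cof (Φ l) x j k)) := by
    intro j
    have h1 := ((h.dbar j).comp_proj h.wt i).mono (q' := m) h.wt le_rfl hN1 le_rfl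
    have h2 := (h.cofSc j k).mono (q' := 0) h.wt le_rfl (Nat.zero_le N) le_rfl
    have h3 := hinv.mul (h1.mul h2 h.wt) h.wt
    refine h3.mono h.wt (by omega) le_rfl le_rfl
  have h4 := ((key 0).add (key 1) h.wt).neg h.wt
  refine ⟨fun l => ?_, fun j hj => ?_⟩
  · refine (h4.smooth l).congr fun x hx => ?_
    simp [AA, Fin.sum_univ_two]
  · obtain ⟨C, hC⟩ := h4.bd j hj
    refine ⟨C, fun l x hx => ?_⟩
    have e : (fun x => AA (Φ l) x k i) = fun x => -((conj (dQ (Φ l) x))⁻¹ *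
        (FL.dzb 0 (Φ l) x i * cof (Φ l) x 0 k) + (conj (dQ (Φ l) x))⁻¹ *
        (FL.dzb 1 (Φ l) x i * cof (Φ l) x 1 k)) := by
      ext y
      simp [AA, Fin.sum_univ_two]
    rw [e]
    exact hC l x hx

/-- near `Φ = 0` the differential of `Φ` is invertible, with inverse `O(|Φ|^{-m₀})` -/
theorem Alm.exists_inv {Φ : I → C2 → C2} {J m m₀ : ℕ} (h : Alm W Φ J m m₀) (hm : m₀ < m) :
    ∃ ε > (0 : ℝ), ∃ C : ℝ, ∀ i, ∀ x ∈ W i, ‖Φ i x‖ < ε → IsUnit (_root_.fderiv ℝ (Φ i) x) ∧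
      ‖Ring.inverse (_root_.fderiv ℝ (Φ i) x)‖ ≤ C * ‖Φ i x‖ ^ (-(m₀ : ℤ)) := by
  obtain ⟨c, hc, hjac⟩ := h.jac
  obtain ⟨B₀, hB₀, hB0⟩ := (h.dzSc 0).bd' h.wt (Nat.zero_le _)
  obtain ⟨B₁, hB₁, hB1⟩ := (h.dzSc 1).bd' h.wt (Nat.zero_le _)
  obtain ⟨C₀, hC₀, hC0⟩ := (h.dbar 0).bd' h.wt (Nat.zero_le _)
  obtain ⟨C₁, hC₁, hC1⟩ := (h.dbar 1).bd' h.wt (Nat.zero_le _)
  set B := 1 + B₀ + B₁ with hBdef
  set C := 1 + C₀ + C₁ with hCdef
  have hBpos : 0 < B := by positivity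
  have hCpos : 0 < C := by positivity
  refine ⟨c / (8 * B * C), by positivity, 4 * B / c, fun i x hx hε => ?_⟩
  have hτ := h.wt.pos i x hx
  have hτ1 := h.le_one i x hx
  have hB : ∀ j, ‖FL.dz j (Φ i) x‖ ≤ B := by
    intro j
    have h0 := hB0 i x hx
    have h1 := hB1 i x hx
    simp only [norm_iteratedFDeriv_zero, Nat.cast_zero, mul_zero, sub_zero, zpow_zero,
      mul_one] at h0 h1
    fin_cases j
    · exact h0.trans (by linarith)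
    · exact h1.trans (by linarith)
  have hP : ∀ j, ‖FL.dzb j (Φ i) x‖ ≤ C * ‖Φ i x‖ ^ m := by
    intro j
    have h0 := hC0 i x hx
    have h1 := hC1 i x hx
    simp only [norm_iteratedFDeriv_zero, Nat.cast_zero, mul_zero, sub_zero,
      zpow_natCast] at h0 h1
    fin_cases j
    · exact h0.trans (by gcongr; linarith)
    · exact h1.trans (by gcongr; linarith)
  have hδ : 0 < c * ‖Φ i x‖ ^ m₀ := by positivity
  have hs : 8 * B * (C * ‖Φ i x‖ ^ m) ≤ c * ‖Φ i x‖ ^ m₀ := by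
    have h1 : ‖Φ i x‖ ^ m ≤ ‖Φ i x‖ ^ (m₀ + 1) := pow_le_pow_of_le_one hτ.le hτ1 hm
    have h2 : ‖Φ i x‖ ^ (m₀ + 1) ≤ ‖Φ i x‖ ^ m₀ * (c / (8 * B * C)) := by
      rw [pow_succ]
      gcongr
    calc 8 * B * (C * ‖Φ i x‖ ^ m) ≤ 8 * B * (C * (‖Φ i x‖ ^ m₀ * (c / (8 * B * C)))) := by
          gcongr
          exact h1.trans h2
      _ = c * ‖Φ i x‖ ^ m₀ := by field_simp
  have hlow := lower_bound hδ hB hP (hjac i x hx) hs
  have hδ' : 0 < c * ‖Φ i x‖ ^ m₀ / (4 * B) := by positivity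
  have hlow' : ∀ v, c * ‖Φ i x‖ ^ m₀ / (4 * B) * ‖v‖ ≤ ‖_root_.fderiv ℝ (Φ i) x v‖ := by
    intro v
    have := hlow v
    rw [div_mul_eq_mul_div, div_le_iff₀ (by positivity)]
    linarith
  obtain ⟨hu, hb⟩ := isUnit_of_lower hδ' hlow'
  refine ⟨hu, hb.trans (le_of_eq ?_)⟩
  rw [zpow_neg, zpow_natCast]
  field_simp

/-- FLATNESS OF THE TRANSPORTED STRUCTURE. -/
theorem Alm.flat {Φ : I → C2 → C2} {J m m₀ : ℕ} (h : Alm W Φ J m m₀) (hm : m₀ < m) :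
    ∃ ε > (0 : ℝ), (∀ i, ∀ x ∈ W i, ‖Φ i x‖ < ε → IsUnit (_root_.fderiv ℝ (Φ i) x)) ∧
      ∀ (A : C2 → ℂ) (k l : Fin 2),
        (∀ i, ∀ x ∈ W i, ‖Φ i x‖ < ε → A (Φ i x) = AA (Φ i) x k l) →
        (∀ i, ∀ x ∈ W i, ‖Φ i x‖ < ε → ContDiffAt ℝ ∞ A (Φ i x)) ∧
        ∀ j ≤ J, ∃ C : ℝ, ∀ i, ∀ x ∈ W i, ‖Φ i x‖ < ε → ‖iteratedFDeriv ℝ j A (Φ i x)‖ ≤
            C * ‖Φ i x‖ ^ ((m : ℤ) - m₀ - (2 * m₀ + 1) * j) := by
  obtain ⟨ε, hε, C, hC⟩ := h.exists_inv hm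
  refine ⟨ε, hε, fun i x hx hx' => (hC i x hx hx').1, fun A k l hA => ?_⟩
  set W' : I → Set C2 := fun i => W i ∩ {x | ‖Φ i x‖ < ε} with hW'
  have ho : ∀ i, IsOpen (W' i) := by
    intro i
    have hc : ContinuousOn (fun x => ‖Φ i x‖) (W i) := (h.bd.smooth i).continuousOn.norm
    exact hc.isOpen_inter_preimage (h.isOpen i) isOpen_Iio
  have h' : Alm W' Φ J m m₀ := h.restrict ho fun i => inter_subset_left
  have hu : ∀ i, ∀ x ∈ W' i, IsUnit (_root_.fderiv ℝ (Φ i) x) :=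
    fun i x hx => (hC i x hx.1 hx.2).1
  have hG := h'.AASc (N := m₀ + 1) (by omega) (by omega) k l
  have hg : ∀ i, ∀ x ∈ W' i, A (Φ i x) = AA (Φ i) x k l := fun i x hx => hA i x hx.1 hx.2
  refine ⟨fun i x hx hx' => contDiffAt_of_comp (ho i) (h'.bd.smooth i) (hG.smooth i) (hg i)
    ⟨hx, hx'⟩ (hu i x ⟨hx, hx'⟩), fun j hj => ?_⟩
  obtain ⟨C', hC'⟩ := Sc.bound_of_comp (N := m₀ + 1) (N' := m₀) h'.wt h'.bd hu
    ⟨C, fun i x hx => (hC i x hx.1 hx.2).2⟩ (by omega) hj (hG.mono h'.wt le_rfl le_rfl hj) hg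
  refine ⟨C', fun i x hx hx' => ?_⟩
  convert hC' i x ⟨hx, hx'⟩ using 3
  push_cast
  ring

end sym

end Vale.Agent.P267.H206
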