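import Vale.Agent.P268.Hol
import Vale.Agent.P267.H206.Flat

/-!
# P267 block G (helper206): Cauchy estimates for all derivatives, and the gluing lemma REG

If `Z = ∑ ρ_b h_b` with `h_b` holomorphic and bounded, `∑ ρ_b = 1` and `h_b - h_{b'} = a^m g_{bb'}`,
`g_{bb'}` holomorphic and bounded, then all derivatives of `Z` are bounded and
`|D^j ∂̄Z| ≤ C |a|^{m-j}`.
-/

set_option linter.unusedVariables false

open scoped ContDiff Topology ComplexConjugate
open Set Filter Metric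

noncomputable section

namespace Vale.Agent.P267.H206

open FL

section cauchy

variable {E : Type} [NormedAddCommGroup E] [NormedSpace ℂ E] [FiniteDimensional ℂ E]

theorem contDiffOn_real_of_hol {F : Type} [NormedAddCommGroup F] [NormedSpace ℂ F]
    [CompleteSpace F] {f : E → F} {U : Set E} (hU : IsOpen U) (hf : DifferentiableOn ℂ f U) :
    ContDiffOn ℝ ∞ f U := by
  rw [contDiffOn_infty]
  intro n
  exact (P268.contDiffOn_of_differentiableOn hU hf n).restrict_scalars ℝ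

/-- Cauchy estimates for the (real) iterated derivatives of a holomorphic function -/
theorem cauchy_iter (j : ℕ) : ∃ C : ℝ, 0 ≤ C ∧ ∀ {F : Type} [NormedAddCommGroup F]
    [NormedSpace ℂ F] [CompleteSpace F] (f : E → F) (x : E) (r A : ℝ), 0 < r → 0 ≤ A →
      DifferentiableOn ℂ f (ball x r) → (∀ y ∈ ball x r, ‖f y‖ ≤ A) →
      ‖iteratedFDeriv ℝ j f x‖ ≤ C * A / r ^ j := by
  induction j with
  | zero =>
    refine ⟨1, zero_le_one, fun f x r A hr hA hf hb => ?_⟩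
    simpa using hb x (mem_ball_self hr)
  | succ j ih =>
    obtain ⟨C, hC0, hC⟩ := ih
    refine ⟨C * 2 ^ (j + 1), by positivity, fun {F} _ _ _ f x r A hr hA hf hb => ?_⟩
    have hr2 : 0 < r / 2 := by positivity
    have hsub : ball x (r / 2) ⊆ ball x r := ball_subset_ball (by linarith)
    have hg : DifferentiableOn ℂ (fun y => fderiv ℂ f y) (ball x (r / 2)) := by
      intro y hy
      have h1 := P268.analyticAt_of_differentiableOn isOpen_ball hf (hsub hy)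
      exact h1.fderiv.differentiableAt.differentiableWithinAt
    have hgb : ∀ y ∈ ball x (r / 2), ‖fderiv ℂ f y‖ ≤ A / (r / 2) := by
      intro y hy
      have hs : ball y (r / 2) ⊆ ball x r := by
        refine ball_subset_ball' ?_
        rw [mem_ball] at hy
        linarith
      exact P268.norm_fderiv_le_of_ball hr2 (hf.mono hs) fun z hz => hb z (hs hz)
    have h1 := hC (fun y => fderiv ℂ f y) x (r / 2) (A / (r / 2)) hr2 (by positivity) hg hgb
    have e : (fun y => fderiv ℝ f y) =ᶠ[𝓝 x]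
        (ContinuousLinearMap.restrictScalarsIsometry ℂ E F ℝ ℝ) ∘ fun y => fderiv ℂ f y := by
      filter_upwards [ball_mem_nhds x hr] with y hy
      have h2 : DifferentiableAt ℂ f y := hf.differentiableAt (isOpen_ball.mem_nhds hy)
      exact h2.fderiv_restrictScalars ℝ
    rw [← norm_iteratedFDeriv_fderiv, (e.iteratedFDeriv (𝕜 := ℝ) j).eq_of_nhds,
      LinearIsometry.norm_iteratedFDeriv_comp_left (n := j) _ ?_ le_rfl]
    · refine h1.trans (le_of_eq ?_)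
      rw [div_pow, pow_succ r j, pow_succ (2 : ℝ) j]
      field_simp
    · have h3 := contDiffOn_real_of_hol isOpen_ball hg
      exact (h3.contDiffAt (ball_mem_nhds x hr2)).of_le (by exact_mod_cast le_top)

end cauchy

section glue

/-- LOCAL DATA for the gluing lemma on the ball of radius `δ` around `ζ` (bounds by `C`). -/
structure GD (J m K : ℕ) (C δ : ℝ) where
  ζ : C2
  ρ : Fin (K + 1) → C2 → ℂ
  h : Fin (K + 1) → C2 → ℂ
  a : C2 → ℂ
  g : Fin (K + 1) → C2 → ℂ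
  ρ_smooth : ∀ b, ContDiffOn ℝ ∞ (ρ b) (ball ζ δ)
  ρ_bd : ∀ b, ∀ j ≤ J + 1, ∀ z ∈ ball ζ δ, ‖iteratedFDeriv ℝ j (ρ b) z‖ ≤ C
  ρ_sum : ∀ z ∈ ball ζ δ, ∑ b, ρ b z = 1
  h_hol : ∀ b, DifferentiableOn ℂ (h b) (ball ζ δ)
  h_bd : ∀ b, ∀ z ∈ ball ζ δ, ‖h b z‖ ≤ C
  a_hol : DifferentiableOn ℂ a (ball ζ δ)
  a_bd : ∀ z ∈ ball ζ δ, ‖a z‖ ≤ 1
  g_hol : ∀ b, DifferentiableOn ℂ (g b) (ball ζ δ)
  g_bd : ∀ b, ∀ z ∈ ball ζ δ, ‖g b z‖ ≤ C
  rel : ∀ b, ∀ z ∈ ball ζ δ, h b z - h 0 z = a z ^ m * g b z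

variable {J m K : ℕ} {C δ : ℝ}

/-- the glued function -/
def GD.Z (t : GD J m K C δ) (z : C2) : ℂ := ∑ b, t.ρ b z * t.h b z

/-- domain -/
def GD.W (t : GD J m K C δ) : Set C2 := ball t.ζ (δ / 2) ∩ {z | t.a z ≠ 0}

theorem GD.wt (hδ : 0 < δ) :
    Wt (fun t : GD J m K C δ => t.W) (fun t z => ‖t.a z‖) where
  isOpen t := by
    have : ContinuousOn t.a (ball t.ζ (δ / 2)) :=
      t.a_hol.continuousOn.mono (ball_subset_ball (by linarith))
    exact this.isOpen_inter_preimage isOpen_ball isOpen_ne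
  pos t z hz := norm_pos_iff.2 hz.2
  le_one t z hz := t.a_bd z (ball_subset_ball (by linarith) hz.1)

/-- bounded families of holomorphic functions on `ball ζ δ` -/
theorem GD.sc_hol (hδ : 0 < δ) (J' : ℕ) (f : GD J m K C δ → C2 → ℂ)
    (hf : ∀ t, DifferentiableOn ℂ (f t) (ball t.ζ δ)) (C' : ℝ)
    (hb : ∀ t, ∀ z ∈ ball t.ζ δ, ‖f t z‖ ≤ C') :
    Sc (fun t : GD J m K C δ => t.W) (fun t z => ‖t.a z‖) 0 J' 0 f := by
  refine ⟨fun t => (contDiffOn_real_of_hol isOpen_ball (hf t)).mono fun z hz =>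
    ball_subset_ball (by linarith) hz.1, fun j hj => ?_⟩
  obtain ⟨C₁, hC₁, h1⟩ := cauchy_iter (E := C2) j
  refine ⟨C₁ * |C'| / (δ / 2) ^ j, fun t z hz => ?_⟩
  have hs : ball z (δ / 2) ⊆ ball t.ζ δ := by
    refine ball_subset_ball' ?_
    have := hz.1
    rw [mem_ball] at this
    linarith
  have h2 := h1 (f t) z (δ / 2) |C'| (by positivity) (abs_nonneg _) ((hf t).mono hs)
    fun y hy => (hb t y (hs hy)).trans (le_abs_self _)
  simpa using h2

theorem GD.sc_a (hδ : 0 < δ) (J' : ℕ) :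
    Sc (fun t : GD J m K C δ => t.W) (fun t z => ‖t.a z‖) 1 J' 1 (fun t => t.a) := by
  have h0 := GD.sc_hol (J := J) (m := m) (K := K) (C := C) hδ J' (fun t => t.a)
    (fun t => t.a_hol) 1 (fun t => t.a_bd)
  refine ⟨h0.smooth, fun j hj => ?_⟩
  rcases j with _ | j
  · refine ⟨1, fun t z hz => ?_⟩
    simp
  · obtain ⟨C', hC0, hC'⟩ := h0.bd' (GD.wt hδ) hj
    refine ⟨C', fun t z hz => (hC' t z hz).trans ?_⟩
    have := zpow_le_zpow_right_of_le_one₀ ((GD.wt hδ).pos t z hz) ((GD.wt hδ).le_one t z hz)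
      (show (1 : ℤ) - (1 : ℕ) * ((j + 1 : ℕ) : ℤ) ≤ 0 - ((0 : ℕ) : ℤ) * ((j + 1 : ℕ) : ℤ) by
        push_cast; omega)
    gcongr

theorem GD.sc_apow (hδ : 0 < δ) (J' n : ℕ) :
    Sc (fun t : GD J m K C δ => t.W) (fun t z => ‖t.a z‖) 1 J' n (fun t z => t.a z ^ n) := by
  induction n with
  | zero =>
    have h0 := GD.sc_hol (J := J) (m := m) (K := K) (C := C) hδ J' (fun t z => 1)
      (fun t => differentiableOn_const _) 1 (fun t z _ => by simp)
    simpa using h0.mono (GD.wt hδ) le_rfl zero_le_one le_rfl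
  | succ n ih =>
    have := ih.mul (GD.sc_a hδ J') (GD.wt hδ)
    simpa [pow_succ] using this

theorem GD.sc_ρ (hδ : 0 < δ) (b : Fin (K + 1)) :
    Sc (fun t : GD J m K C δ => t.W) (fun t z => ‖t.a z‖) 0 (J + 1) 0 (fun t => t.ρ b) := by
  refine ⟨fun t => (t.ρ_smooth b).mono fun z hz => ball_subset_ball (by linarith) hz.1,
    fun j hj => ⟨C, fun t z hz => ?_⟩⟩
  simpa using t.ρ_bd b j hj z (ball_subset_ball (by linarith) hz.1)

theorem Sc.sum {I E F : Type} [NormedAddCommGroup E] [NormedSpace ℝ E] [NormedAddCommGroup F]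
    [NormedSpace ℝ F] {W : I → Set E} {τ : I → E → ℝ} {N J : ℕ} {q : ℤ} {n : ℕ}
    {f : Fin (n + 1) → I → E → F} (hf : ∀ b, Sc W τ N J q (f b)) (hw : Wt W τ) :
    Sc W τ N J q (fun i x => ∑ b, f b i x) := by
  induction n with
  | zero => simpa using hf 0
  | succ n ih =>
    have h1 := ih fun b => hf b.castSucc
    have h2 := h1.add (hf (Fin.last _)) hw
    simpa only [Fin.sum_univ_castSucc (n := n + 1)] using h2

theorem GD.sc_Z (hδ : 0 < δ) :
    Sc (fun t : GD J m K C δ => t.W) (fun t z => ‖t.a z‖) 0 (J + 1) 0 (fun t => t.Z) := by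
  have := Sc.sum (f := fun b (t : GD J m K C δ) z => t.ρ b z * t.h b z) (fun b => by
    have h1 := (GD.sc_ρ (J := J) (m := m) (K := K) (C := C) hδ b).mul
      (GD.sc_hol hδ (J + 1) (fun t => t.h b) (fun t => t.h_hol b) C (fun t => t.h_bd b))
      (GD.wt hδ)
    simpa using h1) (GD.wt hδ)
  exact this

/-- on the domain, `∂̄_i Z = ∑ (∂̄_i ρ_b) a^m g_b` -/
theorem GD.dzb_Z (hδ : 0 < δ) (t : GD J m K C δ) {z : C2} (hz : z ∈ ball t.ζ δ) (i : Fin 2) :
    dzb i t.Z z = ∑ b, dzb i (t.ρ b) z * (t.a z ^ m * t.g b z) := by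
  have hn := isOpen_ball.mem_nhds hz
  have hρ : ∀ b, DifferentiableAt ℝ (t.ρ b) z := fun b =>
    ((t.ρ_smooth b).contDiffAt hn).differentiableAt (by norm_num)
  have hh : ∀ b, DifferentiableAt ℂ (t.h b) z := fun b => (t.h_hol b).differentiableAt hn
  have h1 : dzb i t.Z z = ∑ b, dzb i (t.ρ b) z * t.h b z := by
    have h0 := dzb_sum (f := fun b y => t.ρ b y * t.h b y) Finset.univ (z := z)
      (fun b _ => (hρ b).mul ((hh b).restrictScalars ℝ)) i
    refine h0.trans (Finset.sum_congr rfl fun b _ => ?_)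
    rw [dzb_mul (hρ b) ((hh b).restrictScalars ℝ), dzb_of_hol (hh b)]
    ring
  have h2 : ∑ b, dzb i (t.ρ b) z = 0 := by
    rw [← dzb_sum (f := fun b y => t.ρ b y) _ fun b _ => hρ b]
    have : (fun y => ∑ b, t.ρ b y) =ᶠ[𝓝 z] fun _ => 1 := by
      filter_upwards [hn] with y hy using t.ρ_sum y hy
    rw [dzb_congr this, dzb_of_hol (differentiableAt_const _)]
  have h3 : dzb i t.Z z = ∑ b, dzb i (t.ρ b) z * (t.h b z - t.h 0 z) := by
    simp only [mul_sub, Finset.sum_sub_distrib, ← Finset.sum_mul, h2, zero_mul, sub_zero, h1]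
  rw [h3]
  exact Finset.sum_congr rfl fun b _ => by rw [t.rel b z hz]

theorem GD.sc_dbar (hδ : 0 < δ) (i : Fin 2) :
    Sc (fun t : GD J m K C δ => t.W) (fun t z => ‖t.a z‖) 1 J m (fun t => dzb i t.Z) := by
  have h1 : ∀ b, Sc (fun t : GD J m K C δ => t.W) (fun t z => ‖t.a z‖) 1 J m
      (fun t z => dzb i (t.ρ b) z * (t.a z ^ m * t.g b z)) := by
    intro b
    have a1 := ((GD.sc_ρ (J := J) (m := m) (K := K) (C := C) hδ b).dzb (GD.wt hδ) i).mono
      (q' := 0) (GD.wt hδ) (by simp) zero_le_one le_rfl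
    have a2 := (GD.sc_hol (J := J) (m := m) (K := K) (C := C) hδ J (fun t => t.g b)
      (fun t => t.g_hol b) C (fun t => t.g_bd b)).mono (GD.wt hδ) le_rfl zero_le_one le_rfl
    have a3 := (GD.sc_apow (J := J) (m := m) (K := K) (C := C) hδ J m).mul a2 (GD.wt hδ)
    have a4 := a1.mul a3 (GD.wt hδ)
    simpa using a4
  have h2 := Sc.sum h1 (GD.wt hδ)
  refine ⟨fun t => (h2.smooth t).congr fun z hz => ?_, fun j hj => ?_⟩
  · exact t.dzb_Z hδ (ball_subset_ball (by linarith) hz.1) i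
  · obtain ⟨C', hC'⟩ := h2.bd j hj
    refine ⟨C', fun t z hz => ?_⟩
    have e : dzb i t.Z =ᶠ[𝓝 z] fun z => ∑ b, dzb i (t.ρ b) z * (t.a z ^ m * t.g b z) := by
      filter_upwards [((GD.wt hδ).isOpen t).mem_nhds hz] with y hy
      exact t.dzb_Z hδ (ball_subset_ball (by linarith) hy.1) i
    rw [(e.iteratedFDeriv (𝕜 := ℝ) j).eq_of_nhds]
    exact hC' t z hz

/-- REG, local form -/
theorem GD.main (J m K : ℕ) (C : ℝ) {δ : ℝ} (hδ : 0 < δ) : ∃ C' : ℝ, ∀ t : GD J m K C δ,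
    t.a t.ζ ≠ 0 → ContDiffAt ℝ ∞ t.Z t.ζ ∧ (∀ j ≤ J + 1, ‖iteratedFDeriv ℝ j t.Z t.ζ‖ ≤ C') ∧
      ∀ i, ∀ j ≤ J, ‖iteratedFDeriv ℝ j (dzb i t.Z) t.ζ‖ ≤ C' * ‖t.a t.ζ‖ ^ ((m : ℤ) - j) := by
  have h1 := GD.sc_Z (J := J) (m := m) (K := K) (C := C) hδ
  have h2 := fun i => GD.sc_dbar (J := J) (m := m) (K := K) (C := C) hδ i
  choose! C₁ hC₁ hC₁' using fun (j : ℕ) (hj : j ≤ J + 1) => h1.bd' (GD.wt hδ) hj
  choose! C₂ hC₂ hC₂' using fun i (j : ℕ) (hj : j ≤ J) => (h2 i).bd' (GD.wt hδ) hj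
  refine ⟨(∑ j ∈ Finset.range (J + 2), |C₁ j|) + ∑ i, ∑ j ∈ Finset.range (J + 1), |C₂ i j|,
    fun t ht => ?_⟩
  have hW : t.ζ ∈ t.W := ⟨mem_ball_self (by positivity), ht⟩
  refine ⟨(h1.smooth t).contDiffAt (((GD.wt hδ).isOpen t).mem_nhds hW), fun j hj => ?_,
    fun i j hj => ?_⟩
  · have := hC₁' j hj t t.ζ hW
    simp only [Nat.cast_zero, zero_mul, sub_self, zpow_zero, mul_one] at this
    have k1 : |C₁ j| ≤ ∑ j ∈ Finset.range (J + 2), |C₁ j| :=
      Finset.single_le_sum (f := fun j => |C₁ j|) (fun _ _ => abs_nonneg _)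
        (Finset.mem_range.2 (by omega))
    have k2 : 0 ≤ ∑ i, ∑ j ∈ Finset.range (J + 1), |C₂ i j| :=
      Finset.sum_nonneg fun _ _ => Finset.sum_nonneg fun _ _ => abs_nonneg _
    have k3 := le_abs_self (C₁ j)
    linarith
  · have := hC₂' i j hj t t.ζ hW
    have e : (m : ℤ) - (1 : ℕ) * (j : ℤ) = (m : ℤ) - j := by push_cast; ring
    rw [e] at this
    refine this.trans ?_
    have hp := (GD.wt hδ).pos t t.ζ hW
    have k1 : |C₂ i j| ≤ ∑ j ∈ Finset.range (J + 1), |C₂ i j| :=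
      Finset.single_le_sum (f := fun j => |C₂ i j|) (fun _ _ => abs_nonneg _)
        (Finset.mem_range.2 (by omega))
    have k2 : ∑ j ∈ Finset.range (J + 1), |C₂ i j| ≤ ∑ i, ∑ j ∈ Finset.range (J + 1), |C₂ i j| :=
      Finset.single_le_sum (f := fun i => ∑ j ∈ Finset.range (J + 1), |C₂ i j|)
        (fun _ _ => Finset.sum_nonneg fun _ _ => abs_nonneg _) (Finset.mem_univ i)
    have k3 := le_abs_self (C₂ i j)
    have k4 : 0 ≤ ∑ j ∈ Finset.range (J + 2), |C₁ j| :=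
      Finset.sum_nonneg fun _ _ => abs_nonneg _
    gcongr
    linarith

end glue

end Vale.Agent.P267.H206
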