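import Vale.Agent.P267.H206.Flat

/-!
# P267 block G (helper206): the transported complex structure, manifold version

`σ i : C2 → M` holomorphic parametrizations defined on `W i`, `Φ i = Pi ∘ σ i`, `Psi` the inverse
of `Pi` on the punctured ball.
-/

set_option linter.unusedVariables false

open scoped ContDiff Topology ComplexConjugate
open Set Filter

noncomputable section

namespace Vale.Agent.P267.H206

open FL

theorem dQ_congr {Φ Φ' : C2 → C2} {ζ : C2} (h : Φ =ᶠ[𝓝 ζ] Φ') : dQ Φ ζ = dQ Φ' ζ := by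
  simp only [dQ, dz_congr h]

theorem AA_congr {Φ Φ' : C2 → C2} {ζ : C2} (h : Φ =ᶠ[𝓝 ζ] Φ') (k i : Fin 2) :
    AA Φ ζ k i = AA Φ' ζ k i := by
  simp only [AA, dQ_congr h, cof, dz_congr h, dzb_congr h]

/-- the complex Jacobian determinant -/
def jd (T : C2 → C2) (ζ : C2) : ℂ :=
  dz 0 (fun y => T y 0) ζ * dz 1 (fun y => T y 1) ζ -
    dz 1 (fun y => T y 0) ζ * dz 0 (fun y => T y 1) ζ

theorem dQ_comp {Φ T : C2 → C2} {ζ : C2} (hT : DifferentiableAt ℂ T ζ)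
    (hΦ : DifferentiableAt ℝ Φ (T ζ)) : dQ (fun y => Φ (T y)) ζ = jd T ζ * dQ Φ (T ζ) := by
  simp only [dQ, jd, dz_comp hΦ hT, Fin.sum_univ_two, Pi.add_apply, Pi.smul_apply, smul_eq_mul]
  ring

/-- the transported structure does not depend on the holomorphic coordinates -/
theorem AA_comp {Φ T : C2 → C2} {ζ : C2} (hT : DifferentiableAt ℂ T ζ) (hd : jd T ζ ≠ 0)
    (hΦ : DifferentiableAt ℝ Φ (T ζ)) (k i : Fin 2) :
    AA (fun y => Φ (T y)) ζ k i = AA Φ (T ζ) k i := by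
  have hd' : conj (jd T ζ) ≠ 0 := by simpa using hd
  have key : ∑ j, dzb j (fun y => Φ (T y)) ζ i * cof (fun y => Φ (T y)) ζ j k
      = conj (jd T ζ) * ∑ j, dzb j Φ (T ζ) i * cof Φ (T ζ) j k := by
    simp only [cof, dz_comp hΦ hT, dzb_comp hΦ hT, Fin.sum_univ_two, Pi.add_apply, Pi.smul_apply,
      smul_eq_mul, jd, map_sub, map_mul, map_add]
    fin_cases k
    · simp only [Fin.zero_eta, Fin.isValue, ↓reduceIte, one_ne_zero]
      ring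
    · simp only [Fin.mk_one, Fin.isValue, ↓reduceIte, one_ne_zero]
      ring
  simp only [AA, ← Finset.mul_sum]
  rw [key, dQ_comp hT hΦ, map_mul, mul_inv]
  field_simp

section mfd

variable {M : Type} [TopologicalSpace M] [ChartedSpace C2 M]

/-- the complex structure on `C2 ∖ 0` transported by the inverse `Psi` of `Pi : M → C2` -/
def AM (Pi : M → C2) (Psi : C2 → M) (x : C2) (k i : Fin 2) : ℂ :=
  AA (fun z => Pi ((chartAt C2 (Psi x)).symm z)) (chartAt C2 (Psi x) (Psi x)) k i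

/-- `σ` is a holomorphic parametrization of `M` at `ζ` -/
structure IsPar (σ : C2 → M) (ζ : C2) : Prop where
  cont : ContinuousAt σ ζ
  hol : DifferentiableAt ℂ (fun z => chartAt C2 (σ ζ) (σ z)) ζ
  jd : jd (fun z => chartAt C2 (σ ζ) (σ z)) ζ ≠ 0

/-- the representation of `Pi` in the preferred chart -/
theorem IsPar.eq {σ : C2 → M} {ζ : C2} (h : IsPar σ ζ) {F : Type*} (Pi : M → F) :
    (fun z => Pi (σ z)) =ᶠ[𝓝 ζ] fun z =>
      (fun z' => Pi ((chartAt C2 (σ ζ)).symm z')) ((fun z => chartAt C2 (σ ζ) (σ z)) z) := by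
  have h1 : ∀ᶠ z in 𝓝 ζ, σ z ∈ (chartAt C2 (σ ζ)).source :=
    h.cont.eventually ((chartAt C2 (σ ζ)).open_source.mem_nhds (mem_chart_source C2 (σ ζ)))
  filter_upwards [h1] with z hz
  simp only [(chartAt C2 (σ ζ)).left_inv hz]

theorem IsPar.AA {σ : C2 → M} {ζ : C2} (h : IsPar σ ζ) {Pi : M → C2} {Psi : C2 → M}
    (hPi : DifferentiableAt ℝ (fun z => Pi ((chartAt C2 (σ ζ)).symm z)) (chartAt C2 (σ ζ) (σ ζ)))
    (hPsi : Psi (Pi (σ ζ)) = σ ζ) (k i : Fin 2) :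
    AM Pi Psi (Pi (σ ζ)) k i = H206.AA (fun z => Pi (σ z)) ζ k i := by
  rw [AA_congr (h.eq Pi), AA_comp h.hol h.jd hPi, AM, hPsi]

variable {I : Type} {W : I → Set C2} {σ : I → C2 → M} {Pi : M → C2} {Psi : C2 → M}
variable {J m m₀ : ℕ} {ε₀ : ℝ}

/-- the data: parametrizations covering a punctured neighbourhood of `0` -/
structure Dat (W : I → Set C2) (σ : I → C2 → M) (Pi : M → C2) (Psi : C2 → M) (J m m₀ : ℕ)
    (ε₀ : ℝ) : Prop where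
  alm : Alm W (fun i z => Pi (σ i z)) J m m₀
  par : ∀ i, ∀ ζ ∈ W i, IsPar (σ i) ζ
  smooth : ∀ i, ∀ ζ ∈ W i, ContDiffAt ℝ ∞ (fun z => Pi ((chartAt C2 (σ i ζ)).symm z))
    (chartAt C2 (σ i ζ) (σ i ζ))
  eps : 0 < ε₀
  inv : ∀ i, ∀ ζ ∈ W i, ‖Pi (σ i ζ)‖ < ε₀ → Psi (Pi (σ i ζ)) = σ i ζ
  surj : ∀ x : C2, x ≠ 0 → ‖x‖ < ε₀ → ∃ i, ∃ ζ ∈ W i, Pi (σ i ζ) = x

theorem Dat.AA (D : Dat W σ Pi Psi J m m₀ ε₀) {i : I} {ζ : C2} (hζ : ζ ∈ W i)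
    (hε : ‖Pi (σ i ζ)‖ < ε₀) (k l : Fin 2) :
    AM Pi Psi (Pi (σ i ζ)) k l = H206.AA (fun z => Pi (σ i z)) ζ k l :=
  (D.par i ζ hζ).AA ((D.smooth i ζ hζ).differentiableAt (by norm_num)) (D.inv i ζ hζ hε) k l

/-- THE MAIN STATEMENT of G-FLAT: the transported complex structure is smooth and flat at `0`. -/
theorem Dat.flat (D : Dat W σ Pi Psi J m m₀ ε₀) (hm : m₀ < m) :
    ∃ ε > (0 : ℝ), ε ≤ ε₀ ∧
      (∀ i, ∀ ζ ∈ W i, ‖Pi (σ i ζ)‖ < ε → IsUnit (fderiv ℝ (fun z => Pi (σ i z)) ζ)) ∧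
      ∀ k l, (∀ x : C2, x ≠ 0 → ‖x‖ < ε → ContDiffAt ℝ ∞ (fun y => AM Pi Psi y k l) x) ∧
        ∀ j ≤ J, ∃ C : ℝ, ∀ x : C2, x ≠ 0 → ‖x‖ < ε →
          ‖iteratedFDeriv ℝ j (fun y => AM Pi Psi y k l) x‖ ≤
            C * ‖x‖ ^ ((m : ℤ) - m₀ - (2 * m₀ + 1) * j) := by
  set W' : I → Set C2 := fun i => W i ∩ {x | ‖Pi (σ i x)‖ < ε₀} with hW'
  have ho : ∀ i, IsOpen (W' i) := by
    intro i
    have hc : ContinuousOn (fun x => ‖Pi (σ i x)‖) (W i) := (D.alm.bd.smooth i).continuousOn.norm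
    exact hc.isOpen_inter_preimage (D.alm.isOpen i) isOpen_Iio
  have h' : Alm W' (fun i z => Pi (σ i z)) J m m₀ := D.alm.restrict ho fun i => inter_subset_left
  obtain ⟨ε, hε, hu, hA⟩ := h'.flat hm
  refine ⟨min ε ε₀, lt_min hε D.eps, min_le_right _ _,
    fun i ζ hζ h => hu i ζ ⟨hζ, h.trans_le (min_le_right _ _)⟩ (h.trans_le (min_le_left _ _)),
    fun k l => ?_⟩
  obtain ⟨h1, h2⟩ := hA (fun y => AM Pi Psi y k l) k l fun i x hx _ => D.AA hx.1 hx.2 k l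
  have hs : ∀ x : C2, x ≠ 0 → ‖x‖ < min ε ε₀ → ∃ i, ∃ ζ ∈ W' i, Pi (σ i ζ) = x ∧ ‖Pi (σ i ζ)‖ < ε := by
    intro x hx0 hx
    obtain ⟨i, ζ, hζ, rfl⟩ := D.surj x hx0 (hx.trans_le (min_le_right _ _))
    exact ⟨i, ζ, ⟨hζ, hx.trans_le (min_le_right _ _)⟩, rfl, hx.trans_le (min_le_left _ _)⟩
  refine ⟨fun x hx0 hx => ?_, fun j hj => ?_⟩
  · obtain ⟨i, ζ, hζ, rfl, h3⟩ := hs x hx0 hx
    exact h1 i ζ hζ h3
  · obtain ⟨C, hC⟩ := h2 j hj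
    refine ⟨C, fun x hx0 hx => ?_⟩
    obtain ⟨i, ζ, hζ, rfl, h3⟩ := hs x hx0 hx
    exact hC i ζ hζ h3

/-- the same with natural exponents: `|D^j A| ≤ C |x|^{p - j}` -/
theorem Dat.flat' (D : Dat W σ Pi Psi J m m₀ ε₀) {p : ℕ} (hJp : J ≤ p)
    (hm : p + m₀ + (2 * m₀ + 1) * J < m) :
    ∃ ε > (0 : ℝ), ε ≤ ε₀ ∧
      (∀ i, ∀ ζ ∈ W i, ‖Pi (σ i ζ)‖ < ε → IsUnit (fderiv ℝ (fun z => Pi (σ i z)) ζ)) ∧
      ∃ C : ℝ, ∀ k l, ∀ x : C2, x ≠ 0 → ‖x‖ < ε →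
        ContDiffAt ℝ ∞ (fun y => AM Pi Psi y k l) x ∧
        ∀ j ≤ J, ‖iteratedFDeriv ℝ j (fun y => AM Pi Psi y k l) x‖ ≤ C * ‖x‖ ^ (p - j) := by
  obtain ⟨ε, hε, hε₀, hu, hA⟩ := D.flat (by
    have : 0 ≤ (2 * m₀ + 1) * J := Nat.zero_le _
    omega)
  refine ⟨min ε 1, lt_min hε one_pos, (min_le_left _ _).trans hε₀,
    fun i ζ hζ h => hu i ζ hζ (h.trans_le (min_le_left _ _)), ?_⟩
  choose! C hC using fun k l j (hj : j ≤ J) => (hA k l).2 j hj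
  refine ⟨∑ k, ∑ l, ∑ j ∈ Finset.range (J + 1), |C k l j|, fun k l x hx0 hx => ?_⟩
  have hx1 := hx.trans_le (min_le_left _ _)
  have hx2 := hx.trans_le (min_le_right _ _)
  refine ⟨(hA k l).1 x hx0 hx1, fun j hj => ?_⟩
  have hpos : 0 < ‖x‖ := norm_pos_iff.2 hx0
  have h1 := hC k l j hj x hx0 hx1
  have h2 : |C k l j| ≤ ∑ k, ∑ l, ∑ j ∈ Finset.range (J + 1), |C k l j| := by
    calc |C k l j| ≤ ∑ j ∈ Finset.range (J + 1), |C k l j| :=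
          Finset.single_le_sum (f := fun j => |C k l j|) (fun _ _ => abs_nonneg _)
            (Finset.mem_range.2 (by omega))
      _ ≤ ∑ l, ∑ j ∈ Finset.range (J + 1), |C k l j| :=
          Finset.single_le_sum (f := fun l => ∑ j ∈ Finset.range (J + 1), |C k l j|)
            (fun _ _ => Finset.sum_nonneg fun _ _ => abs_nonneg _) (Finset.mem_univ l)
      _ ≤ _ := Finset.single_le_sum
            (f := fun k => ∑ l, ∑ j ∈ Finset.range (J + 1), |C k l j|)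
            (fun _ _ => Finset.sum_nonneg fun _ _ => Finset.sum_nonneg fun _ _ => abs_nonneg _)
            (Finset.mem_univ k)
  have h3 : ‖x‖ ^ ((m : ℤ) - m₀ - (2 * m₀ + 1) * j) ≤ ‖x‖ ^ (p - j) := by
    rw [← zpow_natCast]
    refine zpow_le_zpow_right_of_le_one₀ hpos hx2.le ?_
    have h4 : (2 * m₀ + 1) * j ≤ (2 * m₀ + 1) * J := Nat.mul_le_mul_left _ hj
    have h5 : ((2 * m₀ + 1) * j : ℤ) ≤ ((2 * m₀ + 1) * J : ℤ) := by exact_mod_cast h4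
    have h6 : (p : ℤ) + m₀ + (2 * m₀ + 1) * J < m := by exact_mod_cast hm
    have h7 : ((p - j : ℕ) : ℤ) ≤ p := by omega
    linarith
  calc _ ≤ C k l j * ‖x‖ ^ ((m : ℤ) - m₀ - (2 * m₀ + 1) * j) := h1
    _ ≤ |C k l j| * ‖x‖ ^ ((m : ℤ) - m₀ - (2 * m₀ + 1) * j) := by
        gcongr
        exact le_abs_self _
    _ ≤ _ := by gcongr

/-- `Psi` near a point -/
theorem Dat.psi_eq (D : Dat W σ Pi Psi J m m₀ ε₀) {i : I} {ζ : C2} (hζ : ζ ∈ W i)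
    (hε : ‖Pi (σ i ζ)‖ < ε₀) (hu : IsUnit (fderiv ℝ (fun z => Pi (σ i z)) ζ)) :
    ∃ Θ : C2 → C2, ContDiffAt ℝ ∞ Θ (Pi (σ i ζ)) ∧ Θ (Pi (σ i ζ)) = ζ ∧
      ∀ᶠ y in 𝓝 (Pi (σ i ζ)), Θ y ∈ W i ∧ Pi (σ i (Θ y)) = y ∧ Psi y = σ i (Θ y) := by
  obtain ⟨Θ, h1, h2, h3⟩ := exists_local_inv (D.alm.isOpen i) (D.alm.bd.smooth i) hζ hu
  refine ⟨Θ, h1, h2, ?_⟩
  have h4 : ∀ᶠ y : C2 in 𝓝 (Pi (σ i ζ)), ‖y‖ < ε₀ :=
    continuous_norm.continuousAt.eventually (gt_mem_nhds hε)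
  filter_upwards [h3, h4] with y hy hy4
  refine ⟨hy.1, hy.2, ?_⟩
  have := D.inv i (Θ y) hy.1 (by rw [hy.2]; exact hy4)
  rw [hy.2] at this
  exact this

/-- THE TRANSPORT EQUATION: `∂̄_k (φ ∘ Psi) = ∑_i A_{ki} ∂_i (φ ∘ Psi)` for holomorphic `φ` -/
theorem Dat.transport (D : Dat W σ Pi Psi J m m₀ ε₀) {i : I} {ζ : C2} (hζ : ζ ∈ W i)
    (hε : ‖Pi (σ i ζ)‖ < ε₀) (hu : IsUnit (fderiv ℝ (fun z => Pi (σ i z)) ζ)) {φ : M → ℂ}
    (hφ : DifferentiableAt ℂ (fun z => φ ((chartAt C2 (σ i ζ)).symm z))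
      (chartAt C2 (σ i ζ) (σ i ζ))) :
    DifferentiableAt ℝ (fun y => φ (Psi y)) (Pi (σ i ζ)) ∧
    ∀ k, dzb k (fun y => φ (Psi y)) (Pi (σ i ζ)) =
      ∑ l, AM Pi Psi (Pi (σ i ζ)) k l * dz l (fun y => φ (Psi y)) (Pi (σ i ζ)) := by
  have hp := D.par i ζ hζ
  have hG : DifferentiableAt ℂ (fun z => φ (σ i z)) ζ := by
    have h1 : DifferentiableAt ℂ (fun z => φ ((chartAt C2 (σ i ζ)).symm
        ((fun z => chartAt C2 (σ i ζ) (σ i z)) z))) ζ :=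
      DifferentiableAt.comp (g := fun z => φ ((chartAt C2 (σ i ζ)).symm z)) ζ hφ hp.hol
    exact h1.congr_of_eventuallyEq (hp.eq φ)
  obtain ⟨Θ, h1, h2, h3⟩ := D.psi_eq hζ hε hu
  have hg : DifferentiableAt ℝ (fun y => φ (Psi y)) (Pi (σ i ζ)) := by
    have h4 : DifferentiableAt ℝ (fun y => φ (σ i (Θ y))) (Pi (σ i ζ)) := by
      have h5 : DifferentiableAt ℝ (fun z => φ (σ i z)) (Θ (Pi (σ i ζ))) := by
        rw [h2]
        exact hG.restrictScalars ℝ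
      exact h5.comp (Pi (σ i ζ)) (h1.differentiableAt (by norm_num))
    refine h4.congr_of_eventuallyEq ?_
    filter_upwards [h3] with y hy
    rw [hy.2.2]
  refine ⟨hg, fun k => ?_⟩
  have hΦc : ContDiffAt ℝ ∞ (fun z => Pi (σ i z)) ζ :=
    (D.alm.bd.smooth i).contDiffAt ((D.alm.isOpen i).mem_nhds hζ)
  have hΦ : DifferentiableAt ℝ (fun z => Pi (σ i z)) ζ := hΦc.differentiableAt (by norm_num)
  have hd : dQ (fun z => Pi (σ i z)) ζ ≠ 0 := by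
    obtain ⟨c, hc, hj⟩ := D.alm.jac
    have h5 := hj i ζ hζ
    have h6 : 0 < c * ‖Pi (σ i ζ)‖ ^ m₀ := by
      have := norm_pos_iff.2 (D.alm.ne i ζ hζ)
      positivity
    exact norm_pos_iff.1 (h6.trans_le h5)
  have hol : DifferentiableAt ℂ (fun z => (fun y => φ (Psi y)) (Pi (σ i z))) ζ := by
    refine hG.congr_of_eventuallyEq ?_
    have h5 : ∀ᶠ z in 𝓝 ζ, ‖Pi (σ i z)‖ < ε₀ :=
      hΦc.continuousAt.norm.eventually (gt_mem_nhds hε)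
    filter_upwards [h5, (D.alm.isOpen i).mem_nhds hζ] with z hz hz2
    simp only [D.inv i z hz2 hz]
  rw [H206.transport (g := fun y => φ (Psi y)) (Φ := fun z => Pi (σ i z)) hg hΦ hd hol k]
  simp only [D.AA hζ hε]

/-- `Psi` is smooth in the real sense, with invertible differential -/
theorem Dat.psi_smooth (D : Dat W σ Pi Psi J m m₀ ε₀) {i : I} {ζ : C2} (hζ : ζ ∈ W i)
    (hε : ‖Pi (σ i ζ)‖ < ε₀) (hu : IsUnit (fderiv ℝ (fun z => Pi (σ i z)) ζ))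
    (hσ : ContDiffAt ℝ ∞ (fun z => chartAt C2 (σ i ζ) (σ i z)) ζ) :
    ContinuousAt Psi (Pi (σ i ζ)) ∧
      ContDiffAt ℝ ∞ (fun y => chartAt C2 (σ i ζ) (Psi y)) (Pi (σ i ζ)) := by
  obtain ⟨Θ, h1, h2, h3⟩ := D.psi_eq hζ hε hu
  constructor
  · have h4 : ContinuousAt (fun y => σ i (Θ y)) (Pi (σ i ζ)) := by
      have h5 : ContinuousAt (σ i) (Θ (Pi (σ i ζ))) := by
        rw [h2]
        exact (D.par i ζ hζ).cont
      exact h5.comp h1.continuousAt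
    refine h4.congr ?_
    filter_upwards [h3] with y hy
    rw [hy.2.2]
  · have h5 : ContDiffAt ℝ ∞ (fun z => chartAt C2 (σ i ζ) (σ i z)) (Θ (Pi (σ i ζ))) := by
      rw [h2]
      exact hσ
    refine (h5.comp (Pi (σ i ζ)) h1).congr_of_eventuallyEq ?_
    filter_upwards [h3] with y hy
    simp only [Function.comp, hy.2.2]

end mfd

end Vale.Agent.P267.H206
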