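import Vale.Agent.P267.H206.Model
import Vale.Agent.P268.Hol

/-!
# P267 / H206: `log |g|^2` is pluriharmonic
-/

set_option linter.unusedVariables false

open scoped Manifold ContDiff ComplexConjugate Matrix ComplexOrder Topology
open Set Filter

noncomputable section

namespace Vale.Agent.P267.H206

open Vale.Agent.P267.FL

theorem contDiffAt_of_eventually {g : C2 → ℂ} {z : C2}
    (hg : ∀ᶠ w in 𝓝 z, DifferentiableAt ℂ g w) (n : WithTop ℕ∞) : ContDiffAt ℂ n g z := by
  obtain ⟨U, hU, hUo, hz⟩ := eventually_nhds_iff.1 hg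
  have h1 : DifferentiableOn ℂ g U := fun w hw => (hU w hw).differentiableWithinAt
  have h2 := Vale.Agent.P268.analyticAt_of_differentiableOn hUo h1 hz
  exact h2.contDiffAt

/-- real parts of holomorphic functions are pluriharmonic -/
theorem hessE_re {G : C2 → ℂ} {z : C2} (hG : ∀ᶠ w in 𝓝 z, DifferentiableAt ℂ G w) :
    hessE (fun w => (G w).re) z = 0 := by
  ext i j
  unfold hessE
  rw [Matrix.of_apply, Matrix.zero_apply]
  have h1 : (fun w => dzb j (fun w' => ((G w').re : ℂ)) w) =ᶠ[𝓝 z]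
      fun w => (1 / 2 : ℂ) * conj (fderiv ℂ G w (Pi.single j 1)) := by
    filter_upwards [hG] with w hw
    have e1 : HasFDerivAt (fun w' => ((G w').re : ℂ))
        (Complex.ofRealCLM.comp (Complex.reCLM.comp ((fderiv ℂ G w).restrictScalars ℝ))) w :=
      Complex.ofRealCLM.hasFDerivAt.comp w (Complex.reCLM.hasFDerivAt.comp w
        (hw.hasFDerivAt.restrictScalars ℝ))
    have e2 : (Pi.single j Complex.I : C2) = Complex.I • (Pi.single j 1 : C2) := by
      rw [← Pi.single_smul]; simp
    unfold dzb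
    rw [e1.fderiv]
    simp only [ContinuousLinearMap.comp_apply, ContinuousLinearMap.coe_restrictScalars', e2,
      map_smul, Complex.ofRealCLM_apply, Complex.reCLM_apply, smul_eq_mul]
    apply Complex.ext <;> simp
  have hDd : DifferentiableAt ℂ (fun w => fderiv ℂ G w (Pi.single j 1)) z := by
    have h2 := contDiffAt_of_eventually hG 2
    have h3 : DifferentiableAt ℂ (fderiv ℂ G) z :=
      (h2.fderiv_right (m := 1) (by norm_num)).differentiableAt (by norm_num)
    exact h3.clm_apply (differentiableAt_const _)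
  unfold dz
  rw [h1.fderiv_eq]
  set D : C2 → ℂ := fun w => fderiv ℂ G w (Pi.single j 1) with hD
  have e1 : HasFDerivAt (fun w => (1 / 2 : ℂ) * conj (D w))
      ((1 / 2 : ℂ) • ((Complex.conjCLE : ℂ →L[ℝ] ℂ).comp ((fderiv ℂ D z).restrictScalars ℝ))) z :=
    ((Complex.conjCLE : ℂ →L[ℝ] ℂ).hasFDerivAt.comp z
      (hDd.hasFDerivAt.restrictScalars ℝ)).const_mul (1 / 2 : ℂ)
  have e2 : (Pi.single i Complex.I : C2) = Complex.I • (Pi.single i 1 : C2) := by
    rw [← Pi.single_smul]; simp
  rw [e1.fderiv]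
  simp only [_root_.smul_apply, ContinuousLinearMap.comp_apply,
    ContinuousLinearMap.coe_restrictScalars', e2, map_smul, smul_eq_mul,
    ContinuousLinearEquiv.coe_coe, Complex.conjCLE_apply, map_mul, Complex.conj_I]
  ring_nf
  rw [Complex.I_sq]
  ring

theorem log_normSq_eq {g : C2 → ℂ} {z w : C2} (hz : g z ≠ 0) (hw : g w ≠ 0) :
    Real.log (‖g w‖ ^ 2) = Real.log (‖g z‖ ^ 2) + 2 * (Complex.log (g w / g z)).re := by
  rw [Complex.log_re, norm_div, Real.log_div (by positivity) (by positivity), Real.log_pow,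
    Real.log_pow]
  push_cast
  ring

theorem log_div_differentiable {g : C2 → ℂ} {z : C2} (hg : ∀ᶠ w in 𝓝 z, DifferentiableAt ℂ g w)
    (hz : g z ≠ 0) :
    ∀ᶠ w in 𝓝 z, DifferentiableAt ℂ (fun w => Complex.log (g w / g z)) w := by
  have hc : ContinuousAt g z := hg.self_of_nhds.continuousAt
  have h1 : ∀ᶠ w in 𝓝 z, g w / g z ∈ Complex.slitPlane := by
    have h2 : ContinuousAt (fun w => g w / g z) z := hc.div_const _
    refine h2.eventually_mem (Complex.isOpen_slitPlane.mem_nhds ?_)
    rw [div_self hz]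
    exact Complex.one_mem_slitPlane
  filter_upwards [h1, hg] with w h1 h2
  have h3 : DifferentiableAt ℂ (fun w => g w / g z) w := by
    simpa only [div_eq_mul_inv] using h2.mul_const (g z)⁻¹
  exact h3.clog h1

theorem contDiffAt_log {g : C2 → ℂ} {z : C2} (hg : ∀ᶠ w in 𝓝 z, DifferentiableAt ℂ g w)
    (hz : g z ≠ 0) (n : WithTop ℕ∞) : ContDiffAt ℝ n (fun w => Real.log (‖g w‖ ^ 2)) z := by
  have hc : ContinuousAt g z := hg.self_of_nhds.continuousAt
  have h1 := contDiffAt_of_eventually (log_div_differentiable hg hz) n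
  have h2 : ContDiffAt ℝ n (fun w => Real.log (‖g z‖ ^ 2) + 2 * (Complex.log (g w / g z)).re) z :=
    contDiffAt_const.add (contDiffAt_const.mul
      (Complex.reCLM.contDiff.contDiffAt.comp z (h1.restrict_scalars ℝ)))
  refine h2.congr_of_eventuallyEq ?_
  filter_upwards [hc.eventually_ne hz] with w hw
  exact log_normSq_eq hz hw

/-- `log |g|^2` is pluriharmonic -/
theorem hessE_log {g : C2 → ℂ} {z : C2} (hg : ∀ᶠ w in 𝓝 z, DifferentiableAt ℂ g w)
    (hz : g z ≠ 0) : hessE (fun w => Real.log (‖g w‖ ^ 2)) z = 0 := by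
  have hc : ContinuousAt g z := hg.self_of_nhds.continuousAt
  have h0 := log_div_differentiable hg hz
  have h1 := contDiffAt_of_eventually h0 2
  have h2 : (fun w => Real.log (‖g w‖ ^ 2)) =ᶠ[𝓝 z]
      fun w => Real.log (‖g z‖ ^ 2) + 2 * (Complex.log (g w / g z)).re := by
    filter_upwards [hc.eventually_ne hz] with w hw
    exact log_normSq_eq hz hw
  have h3 : ContDiffAt ℝ 2 (fun w => (Complex.log (g w / g z)).re) z :=
    Complex.reCLM.contDiff.contDiffAt.comp z (h1.restrict_scalars ℝ)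
  rw [hessE_congr h2, hessE_add contDiffAt_const (contDiffAt_const.mul h3), hessE_const_mul h3,
    hessE_re h0]
  ext i j
  rw [Matrix.add_apply, hessE_eq contDiffAt_const]
  simp [D2]

theorem lapE_log (H : Matrix (Fin 2) (Fin 2) ℂ) {g : C2 → ℂ} {z : C2}
    (hg : ∀ᶠ w in 𝓝 z, DifferentiableAt ℂ g w) (hz : g z ≠ 0) :
    lapE H (fun w => Real.log (‖g w‖ ^ 2)) z = 0 := by
  unfold lapE
  rw [hessE_log hg hz]
  simp

end Vale.Agent.P267.H206
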