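import Vale.Agent.P267.H399.Defs

/-!
# P267 / H206: second order test at a local maximum, in the model space `ℂ²`
-/

set_option linter.unusedVariables false

open scoped Manifold ContDiff ComplexConjugate Matrix ComplexOrder Topology
open Set Filter

noncomputable section

namespace Vale.Agent.P267.H206

open Vale.Agent.P267.FL

/-- complex Hessian `∂_i ∂̄_j u` of a real function on `ℂ²` -/
def hessE (u : C2 → ℝ) (z : C2) : Matrix (Fin 2) (Fin 2) ℂ :=
  Matrix.of fun i j => dz i (fun w => dzb j (fun w' => (u w' : ℂ)) w) z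

/-- trace of the complex Hessian with respect to the positive matrix `H` -/
def lapE (H : Matrix (Fin 2) (Fin 2) ℂ) (u : C2 → ℝ) (z : C2) : ℝ := (H⁻¹ * hessE u z).trace.re

theorem fderiv_ofReal {u : C2 → ℝ} {z : C2} (hu : DifferentiableAt ℝ u z) (v : C2) :
    fderiv ℝ (fun w => (u w : ℂ)) z v = (fderiv ℝ u z v : ℂ) := by
  have h := (Complex.ofRealCLM.hasFDerivAt.comp z hu.hasFDerivAt).fderiv
  have h2 : (fun w => (u w : ℂ)) = (Complex.ofRealCLM ∘ u) := rfl
  rw [h2, h]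
  simp

/-- second derivative as a function of two vectors -/
def D2 (u : C2 → ℝ) (z v w : C2) : ℝ := fderiv ℝ (fun y => fderiv ℝ u y v) z w

theorem D2_eq {u : C2 → ℝ} {z : C2} (hu : ContDiffAt ℝ 2 u z) (v w : C2) :
    D2 u z v w = fderiv ℝ (fderiv ℝ u) z w v := by
  have h1 : DifferentiableAt ℝ (fderiv ℝ u) z :=
    (hu.fderiv_right (m := 1) (by norm_num)).differentiableAt (by norm_num)
  unfold D2
  have := (h1.hasFDerivAt.clm_apply (hasFDerivAt_const v z)).fderiv
  rw [this]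
  simp

theorem D2_symm {u : C2 → ℝ} {z : C2} (hu : ContDiffAt ℝ 2 u z) (v w : C2) :
    D2 u z v w = D2 u z w v := by
  rw [D2_eq hu, D2_eq hu]
  exact (hu.isSymmSndFDerivAt (by simp)).eq w v

theorem D2_self_nonpos {u : C2 → ℝ} {z : C2} (hu : ContDiffAt ℝ 2 u z) (hm : IsLocalMax u z)
    (v : C2) : D2 u z v v ≤ 0 := by
  set c : ℝ → C2 := fun t => z + t • v with hc
  have hc0 : c 0 = z := by simp [hc]
  have hcd : ∀ t, HasDerivAt c v t := fun t => by
    simpa [hc] using ((hasDerivAt_id t).smul_const v).const_add z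
  have hcc : ContinuousAt c 0 := (hcd 0).continuousAt
  set g : ℝ → ℝ := fun t => u (c t) with hg
  have hev : ∀ᶠ y in 𝓝 z, DifferentiableAt ℝ u y := by
    filter_upwards [hu.eventually (by simp)] with y hy
    exact hy.differentiableAt (by norm_num)
  have hev' : ∀ᶠ t in 𝓝 (0 : ℝ), DifferentiableAt ℝ u (c t) := by
    have : Tendsto c (𝓝 0) (𝓝 z) := by rw [← hc0]; exact hcc
    exact this.eventually hev
  have hg1 : deriv g =ᶠ[𝓝 (0 : ℝ)] fun t => fderiv ℝ u (c t) v := by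
    filter_upwards [hev'] with t ht
    exact (ht.hasFDerivAt.comp_hasDerivAt t (hcd t)).deriv
  have hd1 : DifferentiableAt ℝ (fun y => fderiv ℝ u y v) z := by
    have h1 : DifferentiableAt ℝ (fderiv ℝ u) z :=
      (hu.fderiv_right (m := 1) (by norm_num)).differentiableAt (by norm_num)
    exact h1.clm_apply (differentiableAt_const v)
  have hg2 : deriv (deriv g) 0 = D2 u z v v := by
    rw [hg1.deriv_eq]
    have hd1' : HasFDerivAt (fun y => fderiv ℝ u y v) (fderiv ℝ (fun y => fderiv ℝ u y v) z)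
        (c 0) := by rw [hc0]; exact hd1.hasFDerivAt
    exact (hd1'.comp_hasDerivAt 0 (hcd 0)).deriv
  have hmg : IsLocalMax g 0 := by
    have : Tendsto c (𝓝 0) (𝓝 z) := by rw [← hc0]; exact hcc
    have h2 := this.eventually hm
    simpa [IsLocalMax, IsMaxFilter, hg, hc0] using h2
  by_contra hpos
  push Not at hpos
  have hcg : ContinuousAt g 0 := by
    have h3 : ContinuousAt u (c 0) := by rw [hc0]; exact hu.continuousAt
    exact h3.comp hcc
  have hmin : IsLocalMin g 0 :=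
    isLocalMin_of_deriv_deriv_pos (by rw [hg2]; exact hpos) hmg.deriv_eq_zero hcg
  have hconst : g =ᶠ[𝓝 0] fun _ => g 0 := by
    filter_upwards [hmg, hmin] with t h1 h2
    exact le_antisymm h1 h2
  have h4 : deriv (deriv g) 0 = 0 := by
    have h5 : deriv g =ᶠ[𝓝 0] fun _ => (0 : ℝ) := by
      have := hconst.eventuallyEq_nhds
      filter_upwards [this] with t ht
      rw [ht.deriv_eq]; simp
    rw [h5.deriv_eq]; simp
  rw [hg2] at h4
  exact absurd h4 hpos.ne'

theorem dzb_ofReal {u : C2 → ℝ} {z : C2} (hu : DifferentiableAt ℝ u z) (j : Fin 2) :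
    dzb j (fun w => (u w : ℂ)) z = (1 / 2 : ℂ) * ((fderiv ℝ u z (Pi.single j 1) : ℂ) +
      Complex.I * (fderiv ℝ u z (Pi.single j Complex.I) : ℂ)) := by
  unfold dzb
  rw [fderiv_ofReal hu, fderiv_ofReal hu]
  simp [smul_eq_mul]

/-- formula for the complex Hessian by real second derivatives -/
theorem hessE_eq {u : C2 → ℝ} {z : C2} (hu : ContDiffAt ℝ 2 u z) (i j : Fin 2) :
    hessE u z i j = (1 / 4 : ℂ) * (((D2 u z (Pi.single i 1) (Pi.single j 1) +
        D2 u z (Pi.single i Complex.I) (Pi.single j Complex.I) : ℝ) : ℂ) + Complex.I *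
      ((D2 u z (Pi.single i 1) (Pi.single j Complex.I) -
        D2 u z (Pi.single i Complex.I) (Pi.single j 1) : ℝ) : ℂ)) := by
  have hev : ∀ᶠ y in 𝓝 z, DifferentiableAt ℝ u y := by
    filter_upwards [hu.eventually (by simp)] with y hy
    exact hy.differentiableAt (by norm_num)
  have h1 : (fun w => dzb j (fun w' => (u w' : ℂ)) w) =ᶠ[𝓝 z] fun w =>
      (1 / 2 : ℂ) * ((fderiv ℝ u w (Pi.single j 1) : ℂ) +
        Complex.I * (fderiv ℝ u w (Pi.single j Complex.I) : ℂ)) := by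
    filter_upwards [hev] with y hy
    exact dzb_ofReal hy j
  have hd : ∀ v : C2, DifferentiableAt ℝ (fun y => fderiv ℝ u y v) z := fun v => by
    have h1 : DifferentiableAt ℝ (fderiv ℝ u) z :=
      (hu.fderiv_right (m := 1) (by norm_num)).differentiableAt (by norm_num)
    exact h1.clm_apply (differentiableAt_const v)
  have h2 : ∀ v w : C2, fderiv ℝ (fun y => (fderiv ℝ u y v : ℂ)) z w = (D2 u z v w : ℂ) :=
    fun v w => fderiv_ofReal (hd v) w
  have hdc : ∀ v : C2, DifferentiableAt ℝ (fun y => (fderiv ℝ u y v : ℂ)) z := fun v =>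
    Complex.ofRealCLM.differentiableAt.comp z (hd v)
  have h3 : ∀ w : C2, fderiv ℝ (fun w => (1 / 2 : ℂ) * ((fderiv ℝ u w (Pi.single j 1) : ℂ) +
        Complex.I * (fderiv ℝ u w (Pi.single j Complex.I) : ℂ))) z w =
      (1 / 2 : ℂ) * ((D2 u z (Pi.single j 1) w : ℂ) +
        Complex.I * (D2 u z (Pi.single j Complex.I) w : ℂ)) := by
    intro w
    have e1 : HasFDerivAt (fun w => (1 / 2 : ℂ) * ((fderiv ℝ u w (Pi.single j 1) : ℂ) +
        Complex.I * (fderiv ℝ u w (Pi.single j Complex.I) : ℂ)))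
        ((1 / 2 : ℂ) • (fderiv ℝ (fun w => (fderiv ℝ u w (Pi.single j 1) : ℂ)) z +
          Complex.I • fderiv ℝ (fun w => (fderiv ℝ u w (Pi.single j Complex.I) : ℂ)) z)) z :=
      (((hdc _).hasFDerivAt).add (((hdc _).hasFDerivAt).const_mul Complex.I)).const_mul (1 / 2 : ℂ)
    rw [e1.fderiv]
    simp [h2, smul_eq_mul]
    ring
  unfold hessE
  rw [Matrix.of_apply]
  unfold dz
  rw [h1.fderiv_eq, h3, h3]
  rw [D2_symm hu (Pi.single j 1) (Pi.single i 1), D2_symm hu (Pi.single j Complex.I) (Pi.single i 1),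
    D2_symm hu (Pi.single j 1) (Pi.single i Complex.I),
    D2_symm hu (Pi.single j Complex.I) (Pi.single i Complex.I)]
  push_cast
  simp only [smul_eq_mul]
  ring_nf
  simp only [Complex.I_sq]
  ring

theorem single_decomp (v : C2) : v = (v 0).re • (Pi.single 0 1 : C2) +
    (v 0).im • (Pi.single 0 Complex.I : C2) + (v 1).re • (Pi.single 1 1 : C2) +
    (v 1).im • (Pi.single 1 Complex.I : C2) := by
  funext i
  fin_cases i
  · simp
  · simp

theorem quad_aux (B : C2 →L[ℝ] C2 →L[ℝ] ℝ) (hS : ∀ v w, B v w = B w v) (e1 e2 e3 e4 : C2)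
    (a b c d : ℝ) :
    (4 : ℂ) * ((a + b * Complex.I) * conj ((a : ℂ) + b * Complex.I) * ((1 / 4 : ℂ) *
        (((B e1 e1 + B e2 e2 : ℝ) : ℂ) + Complex.I * ((B e2 e1 - B e1 e2 : ℝ) : ℂ))) +
      (a + b * Complex.I) * conj ((c : ℂ) + d * Complex.I) * ((1 / 4 : ℂ) *
        (((B e3 e1 + B e4 e2 : ℝ) : ℂ) + Complex.I * ((B e4 e1 - B e3 e2 : ℝ) : ℂ))) +
      ((c + d * Complex.I) * conj ((a : ℂ) + b * Complex.I) * ((1 / 4 : ℂ) *
        (((B e1 e3 + B e2 e4 : ℝ) : ℂ) + Complex.I * ((B e2 e3 - B e1 e4 : ℝ) : ℂ))) +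
      (c + d * Complex.I) * conj ((c : ℂ) + d * Complex.I) * ((1 / 4 : ℂ) *
        (((B e3 e3 + B e4 e4 : ℝ) : ℂ) + Complex.I * ((B e4 e3 - B e3 e4 : ℝ) : ℂ))))) =
      ((B (a • e1 + b • e2 + c • e3 + d • e4) (a • e1 + b • e2 + c • e3 + d • e4) +
        B ((-b) • e1 + a • e2 + (-d) • e3 + c • e4) ((-b) • e1 + a • e2 + (-d) • e3 + c • e4) :
        ℝ) : ℂ) := by
  have h12 := hS e1 e2
  have h13 := hS e1 e3
  have h14 := hS e1 e4
  have h23 := hS e2 e3
  have h24 := hS e2 e4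
  have h34 := hS e3 e4
  apply Complex.ext
  · simp [map_add, map_smul]
    simp only [h12, h13, h14, h23, h24, h34]
    ring
  · simp [map_add, map_smul]
    simp only [h12, h13, h14, h23, h24, h34]
    ring

theorem hessE_quad {u : C2 → ℝ} {z : C2} (hu : ContDiffAt ℝ 2 u z) (v : C2) :
    ∑ i, ∑ j, v i * conj (v j) * hessE u z i j =
      (1 / 4 : ℂ) * ((D2 u z v v + D2 u z (Complex.I • v) (Complex.I • v) : ℝ) : ℂ) := by
  have hB : ∀ v w, D2 u z v w = fderiv ℝ (fderiv ℝ u) z w v := fun v w => D2_eq hu v w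
  have hS : ∀ v w, fderiv ℝ (fderiv ℝ u) z v w = fderiv ℝ (fderiv ℝ u) z w v := fun v w => by
    rw [← hB, ← hB]; exact D2_symm hu _ _
  have key := quad_aux (fderiv ℝ (fderiv ℝ u) z) hS (Pi.single 0 1) (Pi.single 0 Complex.I)
    (Pi.single 1 1) (Pi.single 1 Complex.I) (v 0).re (v 0).im (v 1).re (v 1).im
  have hIv : Complex.I • v = (-(v 0).im) • (Pi.single 0 1 : C2) +
    (v 0).re • (Pi.single 0 Complex.I : C2) + (-(v 1).im) • (Pi.single 1 1 : C2) +
    (v 1).re • (Pi.single 1 Complex.I : C2) := by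
    have := single_decomp (Complex.I • v)
    simpa using this
  rw [← single_decomp, ← hIv] at key
  simp only [Complex.re_add_im] at key
  simp only [Fin.sum_univ_two, hessE_eq hu, hB]
  rw [← key]
  ring

theorem hessE_quad_nonpos {u : C2 → ℝ} {z : C2} (hu : ContDiffAt ℝ 2 u z) (hm : IsLocalMax u z)
    (v : C2) : ∃ r : ℝ, r ≤ 0 ∧ ∑ i, ∑ j, v i * conj (v j) * hessE u z i j = (r : ℂ) := by
  refine ⟨(1 / 4) * (D2 u z v v + D2 u z (Complex.I • v) (Complex.I • v)), ?_, ?_⟩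
  · have h1 := D2_self_nonpos hu hm v
    have h2 := D2_self_nonpos hu hm (Complex.I • v)
    linarith
  · rw [hessE_quad hu]
    push_cast
    ring

open scoped MatrixOrder in
theorem exists_sqrt {H : Matrix (Fin 2) (Fin 2) ℂ} (hH : H.PosSemidef) :
    ∃ B : Matrix (Fin 2) (Fin 2) ℂ, H = Bᴴ * B := by
  obtain ⟨y, hy⟩ := CStarAlgebra.nonneg_iff_eq_star_mul_self.mp hH.nonneg
  exact ⟨y, hy⟩

/-- trace of a negative semidefinite matrix against a positive one -/
theorem trace_nonpos {H G : Matrix (Fin 2) (Fin 2) ℂ} (hH : H.PosSemidef)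
    (hG : ∀ v : C2, ∃ r : ℝ, r ≤ 0 ∧ ∑ i, ∑ j, v i * conj (v j) * G i j = (r : ℂ)) :
    (H * G).trace.re ≤ 0 := by
  obtain ⟨B, rfl⟩ := exists_sqrt hH
  have h1 : (Bᴴ * B * G).trace = ∑ k, ∑ i, ∑ j, B k i * conj (B k j) * G i j := by
    simp only [Matrix.trace, Matrix.diag, Matrix.mul_apply, Matrix.conjTranspose_apply,
      Fin.sum_univ_two, starRingEnd_apply]
    ring
  rw [h1, Complex.re_sum]
  refine Finset.sum_nonpos fun k _ => ?_
  obtain ⟨r, hr, h⟩ := hG (B k)
  rw [h]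
  simpa using hr

/-- trace of a positive semidefinite matrix against a positive one -/
theorem trace_nonneg {H G : Matrix (Fin 2) (Fin 2) ℂ} (hH : H.PosSemidef)
    (hG : ∀ v : C2, ∃ r : ℝ, 0 ≤ r ∧ ∑ i, ∑ j, v i * conj (v j) * G i j = (r : ℂ)) :
    0 ≤ (H * G).trace.re := by
  have := trace_nonpos (G := -G) hH (fun v => by
    obtain ⟨r, hr, h⟩ := hG v
    refine ⟨-r, by linarith, ?_⟩
    simp only [Matrix.neg_apply, mul_neg, Finset.sum_neg_distrib, h]
    push_cast
    rfl)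
  simp only [mul_neg, Matrix.trace_neg, Complex.neg_re] at this
  linarith

/-- second order test -/
theorem lapE_nonpos {H : Matrix (Fin 2) (Fin 2) ℂ} (hH : H.PosDef) {u : C2 → ℝ} {z : C2}
    (hu : ContDiffAt ℝ 2 u z) (hm : IsLocalMax u z) : lapE H u z ≤ 0 :=
  trace_nonpos hH.inv.posSemidef fun v => hessE_quad_nonpos hu hm v

/-! ### algebra of `hessE` -/

theorem hessE_congr {u v : C2 → ℝ} {z : C2} (h : u =ᶠ[𝓝 z] v) : hessE u z = hessE v z := by
  ext i j
  unfold hessE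
  rw [Matrix.of_apply, Matrix.of_apply]
  have h2 : (fun w => dzb j (fun w' => (u w' : ℂ)) w) =ᶠ[𝓝 z]
      fun w => dzb j (fun w' => (v w' : ℂ)) w := by
    filter_upwards [h.eventuallyEq_nhds] with w hw
    unfold dzb
    have : (fun w' => (u w' : ℂ)) =ᶠ[𝓝 w] fun w' => (v w' : ℂ) := by
      filter_upwards [hw] with y hy
      rw [hy]
    rw [this.fderiv_eq]
  unfold dz
  rw [h2.fderiv_eq]

theorem D2_add {u v : C2 → ℝ} {z : C2} (hu : ContDiffAt ℝ 2 u z) (hv : ContDiffAt ℝ 2 v z)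
    (a b : C2) : D2 (fun y => u y + v y) z a b = D2 u z a b + D2 v z a b := by
  have hev : ∀ᶠ y in 𝓝 z, DifferentiableAt ℝ u y := by
    filter_upwards [hu.eventually (by simp)] with y hy
    exact hy.differentiableAt (by norm_num)
  have hev' : ∀ᶠ y in 𝓝 z, DifferentiableAt ℝ v y := by
    filter_upwards [hv.eventually (by simp)] with y hy
    exact hy.differentiableAt (by norm_num)
  have h1 : (fun y => fderiv ℝ (fun y => u y + v y) y a) =ᶠ[𝓝 z]
      fun y => fderiv ℝ u y a + fderiv ℝ v y a := by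
    filter_upwards [hev, hev'] with y h1 h2
    rw [fderiv_fun_add h1 h2]; rfl
  have hd : ∀ {u : C2 → ℝ}, ContDiffAt ℝ 2 u z →
      DifferentiableAt ℝ (fun y => fderiv ℝ u y a) z := fun {u} hu => by
    have h1 : DifferentiableAt ℝ (fderiv ℝ u) z :=
      (hu.fderiv_right (m := 1) (by norm_num)).differentiableAt (by norm_num)
    exact h1.clm_apply (differentiableAt_const a)
  unfold D2
  rw [h1.fderiv_eq, fderiv_fun_add (hd hu) (hd hv)]
  rfl

theorem D2_const_mul {u : C2 → ℝ} {z : C2} (hu : ContDiffAt ℝ 2 u z) (c : ℝ)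
    (a b : C2) : D2 (fun y => c * u y) z a b = c * D2 u z a b := by
  have hev : ∀ᶠ y in 𝓝 z, DifferentiableAt ℝ u y := by
    filter_upwards [hu.eventually (by simp)] with y hy
    exact hy.differentiableAt (by norm_num)
  have h1 : (fun y => fderiv ℝ (fun y => c * u y) y a) =ᶠ[𝓝 z]
      fun y => c * fderiv ℝ u y a := by
    filter_upwards [hev] with y h1
    rw [fderiv_const_mul h1]; rfl
  have hd : DifferentiableAt ℝ (fun y => fderiv ℝ u y a) z := by
    have h1 : DifferentiableAt ℝ (fderiv ℝ u) z :=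
      (hu.fderiv_right (m := 1) (by norm_num)).differentiableAt (by norm_num)
    exact h1.clm_apply (differentiableAt_const a)
  unfold D2
  rw [h1.fderiv_eq, fderiv_const_mul hd]
  rfl

theorem hessE_add {u v : C2 → ℝ} {z : C2} (hu : ContDiffAt ℝ 2 u z) (hv : ContDiffAt ℝ 2 v z) :
    hessE (fun y => u y + v y) z = hessE u z + hessE v z := by
  ext i j
  rw [Matrix.add_apply, hessE_eq (hu.add hv), hessE_eq hu, hessE_eq hv]
  simp only [D2_add hu hv]
  push_cast
  ring

theorem hessE_const_mul {u : C2 → ℝ} {z : C2} (hu : ContDiffAt ℝ 2 u z) (c : ℝ) :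
    hessE (fun y => c * u y) z = (c : ℂ) • hessE u z := by
  ext i j
  rw [Matrix.smul_apply, hessE_eq (contDiffAt_const.mul hu), hessE_eq hu]
  simp only [D2_const_mul hu, smul_eq_mul]
  push_cast
  ring

theorem lapE_add (H : Matrix (Fin 2) (Fin 2) ℂ) {u v : C2 → ℝ} {z : C2}
    (hu : ContDiffAt ℝ 2 u z) (hv : ContDiffAt ℝ 2 v z) :
    lapE H (fun y => u y + v y) z = lapE H u z + lapE H v z := by
  unfold lapE
  rw [hessE_add hu hv, mul_add, Matrix.trace_add, Complex.add_re]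

theorem lapE_const_mul (H : Matrix (Fin 2) (Fin 2) ℂ) {u : C2 → ℝ} {z : C2}
    (hu : ContDiffAt ℝ 2 u z) (c : ℝ) :
    lapE H (fun y => c * u y) z = c * lapE H u z := by
  unfold lapE
  rw [hessE_const_mul hu, Matrix.mul_smul, Matrix.trace_smul]
  simp

theorem lapE_sub (H : Matrix (Fin 2) (Fin 2) ℂ) {u v : C2 → ℝ} {z : C2}
    (hu : ContDiffAt ℝ 2 u z) (hv : ContDiffAt ℝ 2 v z) :
    lapE H (fun y => u y - v y) z = lapE H u z - lapE H v z := by
  have h : (fun y => u y - v y) = fun y => u y + (-1) * v y := by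
    funext y; ring
  rw [h, lapE_add H hu (contDiffAt_const.mul hv), lapE_const_mul H hv]
  ring

theorem lapE_congr (H : Matrix (Fin 2) (Fin 2) ℂ) {u v : C2 → ℝ} {z : C2} (h : u =ᶠ[𝓝 z] v) :
    lapE H u z = lapE H v z := by
  unfold lapE
  rw [hessE_congr h]

end Vale.Agent.P267.H206
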