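import Vale.Agent.P267.H206.Cauchy

/-!
# P267 block G (helper206): from the local gluing data to `Alm`
-/

set_option linter.unusedVariables false

open scoped ContDiff Topology ComplexConjugate
open Set Filter Metric

noncomputable section

namespace Vale.Agent.P267.H206

open FL

section

variable {I : Type} {W : I → Set C2} {τ : I → C2 → ℝ} {N J : ℕ} {q : ℤ}

theorem Sc.congr {E F : Type} [NormedAddCommGroup E] [NormedSpace ℝ E] [NormedAddCommGroup F]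
    [NormedSpace ℝ F] {W : I → Set E} {τ : I → E → ℝ} {f g : I → E → F} (hw : Wt W τ)
    (hf : Sc W τ N J q f) (h : ∀ i, ∀ x ∈ W i, f i x = g i x) : Sc W τ N J q g := by
  refine ⟨fun i => (hf.smooth i).congr fun x hx => (h i x hx).symm, fun j hj => ?_⟩
  obtain ⟨C, hC⟩ := hf.bd j hj
  refine ⟨C, fun i x hx => ?_⟩
  have e : g i =ᶠ[𝓝 x] f i := by
    filter_upwards [(hw.isOpen i).mem_nhds hx] with y hy using (h i y hy).symm
  rw [(e.iteratedFDeriv (𝕜 := ℝ) j).eq_of_nhds]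
  exact hC i x hx

theorem Sc.pi {f : I → C2 → C2} (hw : Wt W τ) (hf : ∀ k : Fin 2, Sc W τ N J q (fun i x => f i x k)) :
    Sc W τ N J q f := by
  have h0 := (hf 0).clm (ContinuousLinearMap.single ℝ (fun _ : Fin 2 => ℂ) 0) hw
  have h1 := (hf 1).clm (ContinuousLinearMap.single ℝ (fun _ : Fin 2 => ℂ) 1) hw
  refine (h0.add h1 hw).congr hw fun i x hx => ?_
  ext k
  fin_cases k <;> simp

theorem dzb_pi {f : C2 → C2} {x : C2} (hf : DifferentiableAt ℝ f x) (i k : Fin 2) :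
    dzb i f x k = dzb i (fun y => f y k) x := (dzb_apply hf i k).symm

/-- THE LOCAL FORM OF REG gives the symbol estimates. -/
theorem alm_of_local {Φ : I → C2 → C2} {m m₀ K : ℕ} {C C₂ δ : ℝ} (hδ : 0 < δ)
    (hopen : ∀ i, IsOpen (W i)) (hne : ∀ i, ∀ x ∈ W i, Φ i x ≠ 0)
    (hle : ∀ i, ∀ x ∈ W i, ‖Φ i x‖ ≤ 1) (hJm : J ≤ m)
    (loc : ∀ i, ∀ x ∈ W i, ∀ k, ∃ t : GD J m K C δ, t.ζ = x ∧ t.a x ≠ 0 ∧
      ‖t.a x‖ ≤ C₂ * ‖Φ i x‖ ∧ (fun z => Φ i z k) =ᶠ[𝓝 x] t.Z)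
    (jac : ∃ c > (0 : ℝ), ∀ i, ∀ x ∈ W i, c * ‖Φ i x‖ ^ m₀ ≤ ‖dQ (Φ i) x‖) :
    Alm W Φ J m m₀ := by
  obtain ⟨C', hC'⟩ := GD.main J m K C hδ
  have hw : Wt W (fun i x => ‖Φ i x‖) := ⟨hopen, fun i x hx => norm_pos_iff.2 (hne i x hx), hle⟩
  have hsm : ∀ k i, ContDiffOn ℝ ∞ (fun z => Φ i z k) (W i) := by
    intro k i x hx
    obtain ⟨t, rfl, ha, _, he⟩ := loc i x hx k
    exact ((hC' t ha).1.congr_of_eventuallyEq he).contDiffWithinAt
  have hsm' : ∀ i, ContDiffOn ℝ ∞ (Φ i) (W i) := fun i => contDiffOn_pi.2 fun k => hsm k i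
  have hcomp : ∀ k, Sc W (fun i x => ‖Φ i x‖) 0 (J + 1) 0 (fun i z => Φ i z k) := by
    intro k
    refine ⟨hsm k, fun j hj => ⟨C', fun i x hx => ?_⟩⟩
    obtain ⟨t, rfl, ha, _, he⟩ := loc i x hx k
    have h1 := (hC' t ha).2.1 j hj
    rw [(he.iteratedFDeriv (𝕜 := ℝ) j).eq_of_nhds]
    simpa using h1
  refine ⟨hopen, hne, hle, Sc.pi hw hcomp, fun l => Sc.pi hw fun k => ?_, jac⟩
  have hd : Sc W (fun i x => ‖Φ i x‖) 1 J m (fun i x => dzb l (fun z => Φ i z k) x) := by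
    refine ⟨fun i => contDiffOn_dzb (hopen i) (hsm k i) (by norm_cast) l, fun j hj =>
      ⟨C' * max C₂ 1 ^ (m - j), fun i x hx => ?_⟩⟩
    obtain ⟨t, rfl, ha, hb, he⟩ := loc i x hx k
    have h1 := (hC' t ha).2.2 l j hj
    have he' : (fun x => dzb l (fun z => Φ i z k) x) =ᶠ[𝓝 t.ζ] dzb l t.Z :=
      he.eventuallyEq_nhds.mono fun y hy => dzb_congr hy l
    rw [(he'.iteratedFDeriv (𝕜 := ℝ) j).eq_of_nhds]
    have hC0 : 0 ≤ C' := by
      have := (norm_nonneg _).trans ((hC' t ha).2.1 0 (Nat.zero_le _))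
      exact this
    have hjm : j ≤ m := hj.trans hJm
    have e1 : ((m : ℤ) - j) = ((m - j : ℕ) : ℤ) := by push_cast [hjm]; ring
    have e2 : ((m : ℤ) - (1 : ℕ) * j) = ((m - j : ℕ) : ℤ) := by push_cast [hjm]; ring
    rw [e1, zpow_natCast] at h1
    rw [e2, zpow_natCast]
    refine h1.trans ?_
    rw [mul_assoc, ← mul_pow]
    have hb' : ‖t.a t.ζ‖ ≤ max C₂ 1 * ‖Φ i t.ζ‖ :=
      hb.trans (by gcongr; exact le_max_left _ _)
    gcongr
  refine hd.congr hw fun i x hx => ?_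
  exact (dzb_pi (((hsm' i).contDiffAt ((hopen i).mem_nhds hx)).differentiableAt (by norm_num))
    l k).symm

end

end Vale.Agent.P267.H206
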