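import Mathlib

/-!
# P267 block G (helper206): weighted symbol classes

`Sc W τ N J q f`: a family `f i` of smooth functions on the open sets `W i` of a normed space with
`|D^j f| ≤ C τ^{q - N j}` for `j ≤ J`, uniformly in the index `i`.
-/

set_option linter.unusedVariables false

open scoped ContDiff Topology
open Set Filter

noncomputable section

namespace Vale.Agent.P267.H206

section cls

variable {I E : Type} [NormedAddCommGroup E] [NormedSpace ℝ E]

/-- the weight `τ` and the domains `W` -/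
structure Wt (W : I → Set E) (τ : I → E → ℝ) : Prop where
  isOpen : ∀ i, IsOpen (W i)
  pos : ∀ i, ∀ x ∈ W i, 0 < τ i x
  le_one : ∀ i, ∀ x ∈ W i, τ i x ≤ 1

/-- weighted symbol class -/
structure Sc {F : Type} [NormedAddCommGroup F] [NormedSpace ℝ F] (W : I → Set E)
    (τ : I → E → ℝ) (N J : ℕ) (q : ℤ) (f : I → E → F) : Prop where
  smooth : ∀ i, ContDiffOn ℝ ∞ (f i) (W i)
  bd : ∀ j ≤ J, ∃ C : ℝ, ∀ i, ∀ x ∈ W i, ‖iteratedFDeriv ℝ j (f i) x‖ ≤ C * τ i x ^ (q - N * j)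

variable {F : Type} [NormedAddCommGroup F] [NormedSpace ℝ F]
variable {G : Type} [NormedAddCommGroup G] [NormedSpace ℝ G]
variable {H : Type} [NormedAddCommGroup H] [NormedSpace ℝ H]
variable {W : I → Set E} {τ : I → E → ℝ} {N N' J J' : ℕ} {q q' : ℤ}

theorem Sc.bd' {f : I → E → F} (hf : Sc W τ N J q f) (hw : Wt W τ) {j : ℕ} (hj : j ≤ J) :
    ∃ C : ℝ, 0 ≤ C ∧ ∀ i, ∀ x ∈ W i, ‖iteratedFDeriv ℝ j (f i) x‖ ≤ C * τ i x ^ (q - N * j) := by
  obtain ⟨C, hC⟩ := hf.bd j hj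
  refine ⟨max C 0, le_max_right _ _, fun i x hx => (hC i x hx).trans ?_⟩
  have := zpow_pos (hw.pos i x hx) (q - N * j)
  gcongr
  exact le_max_left _ _

theorem Sc.mono {f : I → E → F} (hf : Sc W τ N J q f) (hw : Wt W τ) (hq : q' ≤ q) (hN : N ≤ N')
    (hJ : J' ≤ J) : Sc W τ N' J' q' f := by
  refine ⟨hf.smooth, fun j hj => ?_⟩
  obtain ⟨C, hC0, hC⟩ := hf.bd' hw (hj.trans hJ)
  refine ⟨C, fun i x hx => (hC i x hx).trans ?_⟩
  have h1 : q' - N' * j ≤ q - N * j := by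
    have : (N : ℤ) * j ≤ N' * j := by
      have : (N : ℤ) ≤ N' := by exact_mod_cast hN
      gcongr
    omega
  have := zpow_le_zpow_right_of_le_one₀ (hw.pos i x hx) (hw.le_one i x hx) h1
  gcongr

theorem Sc.bilin {f : I → E → F} {g : I → E → G} (B : F →L[ℝ] G →L[ℝ] H)
    (hf : Sc W τ N J q f) (hg : Sc W τ N J q' g) (hw : Wt W τ) :
    Sc W τ N J (q + q') (fun i x => B (f i x) (g i x)) := by
  refine ⟨fun i => B.isBoundedBilinearMap.contDiff.comp_contDiffOn
    ((hf.smooth i).prodMk (hg.smooth i)), fun j hj => ?_⟩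
  choose! Cf hCf0 hCf using fun (l : ℕ) (hl : l ≤ J) => hf.bd' hw hl
  choose! Cg hCg0 hCg using fun (l : ℕ) (hl : l ≤ J) => hg.bd' hw hl
  refine ⟨‖B‖ * ∑ l ∈ Finset.range (j + 1), (j.choose l : ℝ) * Cf l * Cg (j - l),
    fun i x hx => ?_⟩
  have hs := (hw.isOpen i).uniqueDiffOn (𝕜 := ℝ)
  have h := B.norm_iteratedFDerivWithin_le_of_bilinear (n := j) ((hf.smooth i)) ((hg.smooth i)) hs hx
    (by exact_mod_cast le_top)
  rw [iteratedFDerivWithin_of_isOpen j (hw.isOpen i) hx] at h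
  refine h.trans ?_
  rw [mul_assoc, Finset.sum_mul]
  refine mul_le_mul_of_nonneg_left (Finset.sum_le_sum fun l hl => ?_) (norm_nonneg B)
  have hl' : l ≤ j := by simpa [Nat.lt_succ_iff] using hl
  rw [iteratedFDerivWithin_of_isOpen l (hw.isOpen i) hx,
    iteratedFDerivWithin_of_isOpen (j - l) (hw.isOpen i) hx]
  have h1 := hCf l (hl'.trans hj) i x hx
  have h2 := hCg (j - l) ((Nat.sub_le _ _).trans hj) i x hx
  have hp := hw.pos i x hx
  calc (j.choose l : ℝ) * ‖iteratedFDeriv ℝ l (f i) x‖ * ‖iteratedFDeriv ℝ (j - l) (g i) x‖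
      ≤ (j.choose l : ℝ) * (Cf l * τ i x ^ (q - N * l)) *
          (Cg (j - l) * τ i x ^ (q' - N * ((j - l : ℕ) : ℤ))) := by
        have := hCf0 l (hl'.trans hj)
        gcongr
    _ = (j.choose l : ℝ) * Cf l * Cg (j - l) * τ i x ^ (q + q' - N * j) := by
        have : q + q' - N * (j : ℤ) = (q - N * l) + (q' - N * ((j - l : ℕ) : ℤ)) := by
          push_cast [hl']
          ring
        rw [this, zpow_add₀ hp.ne']
        ring

theorem Sc.clm {f : I → E → F} (L : F →L[ℝ] G) (hf : Sc W τ N J q f) (hw : Wt W τ) :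
    Sc W τ N J q (fun i x => L (f i x)) := by
  refine ⟨fun i => L.contDiff.comp_contDiffOn (hf.smooth i), fun j hj => ?_⟩
  obtain ⟨C, hC0, hC⟩ := hf.bd' hw hj
  refine ⟨‖L‖ * C, fun i x hx => ?_⟩
  have hc : ContDiffAt ℝ ∞ (f i) x := (hf.smooth i).contDiffAt ((hw.isOpen i).mem_nhds hx)
  have h := L.norm_iteratedFDeriv_comp_left (n := j) hc (by exact_mod_cast le_top)
  calc ‖iteratedFDeriv ℝ j (fun x => L (f i x)) x‖ ≤ ‖L‖ * ‖iteratedFDeriv ℝ j (f i) x‖ := h
    _ ≤ ‖L‖ * (C * τ i x ^ (q - N * j)) := by gcongr; exact hC i x hx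
    _ = _ := by ring

theorem Sc.add {f g : I → E → F} (hf : Sc W τ N J q f) (hg : Sc W τ N J q g) (hw : Wt W τ) :
    Sc W τ N J q (fun i x => f i x + g i x) := by
  refine ⟨fun i => (hf.smooth i).add (hg.smooth i), fun j hj => ?_⟩
  obtain ⟨C, hC0, hC⟩ := hf.bd' hw hj
  obtain ⟨C', hC0', hC'⟩ := hg.bd' hw hj
  refine ⟨C + C', fun i x hx => ?_⟩
  have hc : ContDiffAt ℝ ∞ (f i) x := (hf.smooth i).contDiffAt ((hw.isOpen i).mem_nhds hx)
  have hc' : ContDiffAt ℝ ∞ (g i) x := (hg.smooth i).contDiffAt ((hw.isOpen i).mem_nhds hx)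
  have h : iteratedFDeriv ℝ j (fun x => f i x + g i x) x
      = iteratedFDeriv ℝ j (f i) x + iteratedFDeriv ℝ j (g i) x :=
    iteratedFDeriv_add_apply (hc.of_le (by exact_mod_cast le_top))
      (hc'.of_le (by exact_mod_cast le_top))
  rw [h, add_mul]
  exact (norm_add_le _ _).trans (add_le_add (hC i x hx) (hC' i x hx))

theorem Sc.neg {f : I → E → F} (hf : Sc W τ N J q f) (hw : Wt W τ) :
    Sc W τ N J q (fun i x => -f i x) := by
  simpa using hf.clm (-ContinuousLinearMap.id ℝ F) hw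

theorem Sc.sub {f g : I → E → F} (hf : Sc W τ N J q f) (hg : Sc W τ N J q g) (hw : Wt W τ) :
    Sc W τ N J q (fun i x => f i x - g i x) := by
  simpa [sub_eq_add_neg] using hf.add (hg.neg hw) hw

theorem Sc.fderiv {f : I → E → F} (hf : Sc W τ N (J + 1) q f) (hw : Wt W τ) :
    Sc W τ N J (q - N) (fun i x => fderiv ℝ (f i) x) := by
  refine ⟨fun i => ?_, fun j hj => ?_⟩
  · exact (hf.smooth i).fderiv_of_isOpen (hw.isOpen i) (by norm_cast)
  · obtain ⟨C, hC⟩ := hf.bd (j + 1) (by omega)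
    refine ⟨C, fun i x hx => ?_⟩
    have h := hC i x hx
    rw [← norm_iteratedFDeriv_fderiv] at h
    convert h using 3
    push_cast
    ring

theorem Sc.of_fderiv {f : I → E → F} (h0 : Sc W τ N 0 q f)
    (h : Sc W τ N J (q - N) (fun i x => _root_.fderiv ℝ (f i) x)) : Sc W τ N (J + 1) q f := by
  refine ⟨h0.smooth, fun j hj => ?_⟩
  rcases j with _ | j
  · exact h0.bd 0 le_rfl
  · obtain ⟨C, hC⟩ := h.bd j (by omega)
    refine ⟨C, fun i x hx => ?_⟩
    rw [← norm_iteratedFDeriv_fderiv]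
    convert hC i x hx using 3
    push_cast
    ring

theorem Sc.zero_iff {f : I → E → F} : Sc W τ N 0 q f ↔
    (∀ i, ContDiffOn ℝ ∞ (f i) (W i)) ∧ ∃ C : ℝ, ∀ i, ∀ x ∈ W i, ‖f i x‖ ≤ C * τ i x ^ q := by
  constructor
  · rintro ⟨h1, h2⟩
    obtain ⟨C, hC⟩ := h2 0 le_rfl
    exact ⟨h1, C, fun i x hx => by simpa using hC i x hx⟩
  · rintro ⟨h1, C, hC⟩
    refine ⟨h1, fun j hj => ⟨C, fun i x hx => ?_⟩⟩
    obtain rfl : j = 0 := by omega
    simpa using hC i x hx

/-- inverses: `T` has bounded derivatives and `|T⁻¹| ≤ C τ^{-N'}`, `N' ≤ N` -/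
theorem Sc.ringInverse {R : Type} [NormedRing R] [NormedAlgebra ℝ R] [CompleteSpace R]
    {T : I → E → R} (hw : Wt W τ) (hT : Sc W τ 0 J 0 T) (hN : N' ≤ N)
    (hu : ∀ i, ∀ x ∈ W i, IsUnit (T i x))
    (hb : ∃ C : ℝ, ∀ i, ∀ x ∈ W i, ‖Ring.inverse (T i x)‖ ≤ C * τ i x ^ (-(N' : ℤ))) :
    Sc W τ N J (-(N' : ℤ)) (fun i x => Ring.inverse (T i x)) := by
  have hsm : ∀ i, ContDiffOn ℝ ∞ (fun x => Ring.inverse (T i x)) (W i) := by
    intro i x hx
    obtain ⟨u, hu'⟩ := hu i x hx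
    have h1 : ContDiffAt ℝ ∞ (Ring.inverse : R → R) (T i x) := by
      rw [← hu']
      exact contDiffAt_ringInverse ℝ u
    exact h1.comp_contDiffWithinAt x (hT.smooth i x hx)
  induction J with
  | zero => exact Sc.zero_iff.2 ⟨hsm, hb⟩
  | succ J ih =>
    have ih' := ih (hT.mono hw le_rfl le_rfl (Nat.le_succ J))
    refine Sc.of_fderiv (Sc.zero_iff.2 ⟨hsm, hb⟩) ?_
    have hd : ∀ i, ∀ x ∈ W i, _root_.fderiv ℝ (fun x => Ring.inverse (T i x)) x
        = -((ContinuousLinearMap.mulLeftRight ℝ R (Ring.inverse (T i x)) (Ring.inverse (T i x))).comp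
            (_root_.fderiv ℝ (T i) x)) := by
      intro i x hx
      obtain ⟨u, hu'⟩ := hu i x hx
      have h1 : HasFDerivAt (Ring.inverse : R → R)
          (-ContinuousLinearMap.mulLeftRight ℝ R (Ring.inverse (T i x)) (Ring.inverse (T i x)))
          (T i x) := by
        rw [← hu', Ring.inverse_unit]
        exact hasFDerivAt_ringInverse u
      have h2 : HasFDerivAt (T i) (_root_.fderiv ℝ (T i) x) x :=
        (((hT.smooth i).contDiffAt ((hw.isOpen i).mem_nhds hx)).differentiableAt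
          (by norm_num)).hasFDerivAt
      have := (h1.comp x h2).fderiv
      rw [show (fun x => Ring.inverse (T i x)) = Ring.inverse ∘ T i from rfl, this]
      simp
    have hT' : Sc W τ N J 0 (fun i x => _root_.fderiv ℝ (T i) x) := by
      have := hT.fderiv hw
      simp only [Nat.cast_zero, sub_zero] at this
      exact this.mono hw le_rfl (Nat.zero_le _) le_rfl
    have h1 := ih'.bilin (ContinuousLinearMap.mulLeftRight ℝ R) ih' hw
    have h2 := (h1.bilin (ContinuousLinearMap.compL ℝ E R R) hT' hw).neg hw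
    have h3 := h2.mono (q' := -(N' : ℤ) - N) hw (by omega) le_rfl le_rfl
    refine ⟨fun i => ?_, fun j hj => ?_⟩
    · refine (h3.smooth i).congr fun x hx => ?_
      rw [hd i x hx]
      rfl
    · obtain ⟨C, hC⟩ := h3.bd j hj
      refine ⟨C, fun i x hx => ?_⟩
      have he : (fun x => _root_.fderiv ℝ (fun x => Ring.inverse (T i x)) x) =ᶠ[𝓝 x]
          fun x => -(((ContinuousLinearMap.compL ℝ E R R)
            (((ContinuousLinearMap.mulLeftRight ℝ R) (Ring.inverse (T i x)))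
              (Ring.inverse (T i x)))) (_root_.fderiv ℝ (T i) x)) := by
        filter_upwards [(hw.isOpen i).mem_nhds hx] with y hy
        rw [hd i y hy]
        rfl
      rw [(he.iteratedFDeriv (𝕜 := ℝ) j).eq_of_nhds]
      exact hC i x hx

section comp

variable [CompleteSpace E]

/-- the local inverse of `Φ` at a point with invertible differential -/
theorem exists_local_inv {Φ : E → E} {U : Set E} (hU : IsOpen U) (hΦ : ContDiffOn ℝ ∞ Φ U) {x : E}
    (hx : x ∈ U) (hu : IsUnit (_root_.fderiv ℝ Φ x)) :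
    ∃ Θ : E → E, ContDiffAt ℝ ∞ Θ (Φ x) ∧ Θ (Φ x) = x ∧ ∀ᶠ y in 𝓝 (Φ x), Θ y ∈ U ∧ Φ (Θ y) = y := by
  have hc : ContDiffAt ℝ ∞ Φ x := hΦ.contDiffAt (hU.mem_nhds hx)
  obtain ⟨u, hu⟩ := hu
  let e : E ≃L[ℝ] E := ContinuousLinearEquiv.ofUnit u
  have hd : HasFDerivAt Φ (e : E →L[ℝ] E) x := by
    have : (e : E →L[ℝ] E) = _root_.fderiv ℝ Φ x := by
      rw [← hu]
      rfl
    rw [this]
    exact (hc.differentiableAt (by norm_num)).hasFDerivAt
  have hn : (∞ : WithTop ℕ∞) ≠ 0 := by simp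
  let P := hc.toOpenPartialHomeomorph Φ hd hn
  have hxP : x ∈ P.source := hc.mem_toOpenPartialHomeomorph_source hd hn
  have hPx : P x = Φ x := by rw [hc.toOpenPartialHomeomorph_coe hd hn]
  refine ⟨hc.localInverse hd hn, hc.to_localInverse hd hn, hc.localInverse_apply_image hd hn, ?_⟩
  have h1 : ∀ᶠ y in 𝓝 (Φ x), y ∈ P.target := by
    refine P.open_target.mem_nhds ?_
    rw [← hPx]
    exact P.map_source hxP
  have h2 : ∀ᶠ y in 𝓝 (Φ x), hc.localInverse hd hn y ∈ U := by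
    have h3 : ContinuousAt (hc.localInverse hd hn) (Φ x) :=
      (hc.to_localInverse hd hn).continuousAt
    refine h3.eventually ?_
    rw [hc.localInverse_apply_image hd hn]
    exact hU.mem_nhds hx
  filter_upwards [h1, h2] with y hy hy2
  refine ⟨hy2, ?_⟩
  have := P.right_inv hy
  rw [hc.toOpenPartialHomeomorph_coe hd hn] at this
  exact this

theorem contDiffAt_of_comp {Φ : E → E} {U : Set E} (hU : IsOpen U) (hΦ : ContDiffOn ℝ ∞ Φ U)
    {g : E → F} {G : E → F} (hG : ContDiffOn ℝ ∞ G U) (hg : ∀ x ∈ U, g (Φ x) = G x) {x : E}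
    (hx : x ∈ U) (hu : IsUnit (_root_.fderiv ℝ Φ x)) : ContDiffAt ℝ ∞ g (Φ x) := by
  obtain ⟨Θ, h1, h2, h3⟩ := exists_local_inv hU hΦ hx hu
  have hGx : ContDiffAt ℝ ∞ G (Θ (Φ x)) := by
    rw [h2]
    exact hG.contDiffAt (hU.mem_nhds hx)
  refine (hGx.comp (Φ x) h1).congr_of_eventuallyEq ?_
  filter_upwards [h3] with y hy
  rw [Function.comp, ← hg _ hy.1, hy.2]

theorem fderiv_of_comp {Φ : E → E} {U : Set E} (hU : IsOpen U) (hΦ : ContDiffOn ℝ ∞ Φ U)
    {g : E → F} {G : E → F} (hG : ContDiffOn ℝ ∞ G U) (hg : ∀ x ∈ U, g (Φ x) = G x) {x : E}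
    (hx : x ∈ U) (hu : IsUnit (_root_.fderiv ℝ Φ x)) :
    _root_.fderiv ℝ g (Φ x) = (_root_.fderiv ℝ G x).comp (Ring.inverse (_root_.fderiv ℝ Φ x)) := by
  have h1 := contDiffAt_of_comp hU hΦ hG hg hx hu
  have h2 : DifferentiableAt ℝ g (Φ x) := h1.differentiableAt (by norm_num)
  have h3 : DifferentiableAt ℝ Φ x :=
    (hΦ.contDiffAt (hU.mem_nhds hx)).differentiableAt (by norm_num)
  have h4 : G =ᶠ[𝓝 x] fun y => g (Φ y) := by
    filter_upwards [hU.mem_nhds hx] with y hy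
    rw [hg y hy]
  have h5 : _root_.fderiv ℝ G x = (_root_.fderiv ℝ g (Φ x)).comp (_root_.fderiv ℝ Φ x) := by
    rw [h4.fderiv_eq]
    exact fderiv_fun_comp x h2 h3
  rw [h5, ContinuousLinearMap.comp_assoc]
  have h6 : (_root_.fderiv ℝ Φ x).comp (Ring.inverse (_root_.fderiv ℝ Φ x))
      = ContinuousLinearMap.id ℝ E := Ring.mul_inverse_cancel _ hu
  rw [h6, ContinuousLinearMap.comp_id]

/-- CHANGE OF VARIABLES: if `g ∘ Φ i = G i` and `G` is a symbol, the derivatives of `g` are bounded -/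
theorem Sc.bound_of_comp {Φ : I → E → E} (hw : Wt W τ) (hΦ : Sc W τ 0 (J + 1) 0 Φ)
    (hu : ∀ i, ∀ x ∈ W i, IsUnit (_root_.fderiv ℝ (Φ i) x))
    (hb : ∃ C : ℝ, ∀ i, ∀ x ∈ W i,
      ‖Ring.inverse (_root_.fderiv ℝ (Φ i) x)‖ ≤ C * τ i x ^ (-(N' : ℤ)))
    (hN : N' ≤ N) {j : ℕ} (hj : j ≤ J) {F : Type} [NormedAddCommGroup F] [NormedSpace ℝ F]
    {G : I → E → F} (hG : Sc W τ N j q G) {g : E → F} (hg : ∀ i, ∀ x ∈ W i, g (Φ i x) = G i x) :
    ∃ C : ℝ, ∀ i, ∀ x ∈ W i,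
      ‖iteratedFDeriv ℝ j g (Φ i x)‖ ≤ C * τ i x ^ (q - (N + N') * j) := by
  induction j generalizing F q with
  | zero =>
    obtain ⟨C, hC⟩ := hG.bd 0 le_rfl
    refine ⟨C, fun i x hx => ?_⟩
    have := hC i x hx
    rw [norm_iteratedFDeriv_zero] at this ⊢
    rw [hg i x hx]
    simpa using this
  | succ j ih =>
    have hT : Sc W τ 0 J 0 (fun i x => _root_.fderiv ℝ (Φ i) x) := by
      have := hΦ.fderiv hw
      simpa using this
    have hM : Sc W τ N j (-(N' : ℤ)) (fun i x => Ring.inverse (_root_.fderiv ℝ (Φ i) x)) :=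
      Sc.ringInverse hw (hT.mono hw le_rfl le_rfl (by omega)) hN hu hb
    have hG' := (hG.fderiv hw).bilin (ContinuousLinearMap.compL ℝ E E F) hM hw
    have hg' : ∀ i, ∀ x ∈ W i, _root_.fderiv ℝ g (Φ i x)
        = (ContinuousLinearMap.compL ℝ E E F) (_root_.fderiv ℝ (G i) x)
          (Ring.inverse (_root_.fderiv ℝ (Φ i) x)) := by
      intro i x hx
      exact fderiv_of_comp (hw.isOpen i) (hΦ.smooth i) (hG.smooth i) (hg i) hx (hu i x hx)
    obtain ⟨C, hC⟩ := ih (by omega) hG' hg'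
    refine ⟨C, fun i x hx => ?_⟩
    rw [← norm_iteratedFDeriv_fderiv]
    convert hC i x hx using 3
    push_cast
    ring

end comp


end cls

end Vale.Agent.P267.H206
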